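import Crest.Agent.R39.Pairs

/-!
# Row 39: contracting one side of a 3-edge-cut
-/

set_option autoImplicit false
set_option linter.unusedSectionVars false

namespace Crest.Agent.R39

open Finset Equiv

theorem three_cycle {E : Type} [DecidableEq E] (C : Finset E) (hC : C.card = 3) (δ : E → E)
    (h1 : ∀ c ∈ C, δ c ∈ C) (h2 : ∀ c ∈ C, ∀ c' ∈ C, δ c = δ c' → c = c')
    (h3 : ∀ c ∈ C, δ c ≠ c) (c : E) (hc : c ∈ C) :
    δ (δ (δ c)) = c ∧ ∀ c' ∈ C, c' = c ∨ c' = δ c ∨ c' = δ (δ c) := by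
  have a1 := h1 c hc
  have a2 := h1 _ a1
  have a3 := h1 _ a2
  have n1 : δ (δ c) ≠ c := by
    intro h
    have : ({c, δ c} : Finset E).card < C.card := by
      rw [card_pair (h3 c hc).symm]; omega
    obtain ⟨z, hz, hz'⟩ := exists_mem_notMem_of_card_lt_card this
    simp only [mem_insert, mem_singleton, not_or] at hz'
    have hall : ({c, δ c, z} : Finset E) = C := by
      apply eq_of_subset_of_card_le
      · intro x hx
        simp only [mem_insert, mem_singleton] at hx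
        rcases hx with rfl | rfl | rfl <;> assumption
      · rw [hC, card_eq_three.mpr ⟨_, _, _, (h3 c hc).symm, Ne.symm hz'.1, Ne.symm hz'.2, rfl⟩]
    have h4 := h1 z hz
    rw [← hall] at h4
    simp only [mem_insert, mem_singleton] at h4
    rcases h4 with h4 | h4 | h4
    · exact hz'.2 (h2 _ hz _ a1 (h4.trans h.symm))
    · exact hz'.1 (h2 _ hz _ hc h4)
    · exact h3 z hz h4
  have hall : ({c, δ c, δ (δ c)} : Finset E) = C := by
    apply eq_of_subset_of_card_le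
    · intro x hx
      simp only [mem_insert, mem_singleton] at hx
      rcases hx with rfl | rfl | rfl <;> assumption
    · rw [hC, card_eq_three.mpr ⟨_, _, _, (h3 c hc).symm, n1.symm, (h3 _ a1).symm, rfl⟩]
  constructor
  · rw [← hall] at a3
    simp only [mem_insert, mem_singleton] at a3
    rcases a3 with h | h | h
    · exact h
    · exact absurd (h2 _ a2 _ hc h) n1
    · exact absurd h (h3 _ a2)
  · intro c' hc'
    rw [← hall] at hc'
    simpa using hc'

namespace HM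

variable {E D L V : Type} {H : HM E D L V}
variable [Fintype E] [Fintype D] [Fintype L] [Fintype V]
  [DecidableEq E] [DecidableEq D] [DecidableEq L] [DecidableEq V]

variable (H) in
/-- data of a 3-edge-cut all of whose edges have their dark end in `X` -/
structure CutData (X : Finset (D ⊕ L)) (δ : E → E) : Prop where
  side : ∀ e, H.b e ∈ X → H.a e ∈ X
  card : (H.cutA X).card = 3
  mem : ∀ c ∈ H.cutA X, δ c ∈ H.cutA X
  hd : ∀ c ∈ H.cutA X, H.tl (H.β (δ c)) = H.tl c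
  tinj : ∀ c ∈ H.cutA X, ∀ c' ∈ H.cutA X, H.tl c = H.tl c' → c = c'
  ne : ∀ c ∈ H.cutA X, δ c ≠ c
  cube : ∀ c ∈ H.cutA X, δ (δ (δ c)) = c
  fib : ∀ c ∈ H.cutA X, ∀ c' ∈ H.cutA X, c' = c ∨ c' = δ c ∨ c' = δ (δ c)

theorem exists_cutData (hc : H.Conn3) (he : H.Euler) {X : Finset (D ⊕ L)}
    (hs : ∀ e, H.b e ∈ X → H.a e ∈ X) (h3 : (H.cutA X).card = 3) : ∃ δ, H.CutData X δ := by
  classical
  have hcirc : ∀ v, ((H.cutA X).filter (fun c => H.tl c = v)).card =
      ((H.cutA X).filter (fun c => H.tl (H.β c) = v)).card := by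
    intro v
    have h1 := H.orth (ind X) (Pi.single v 1)
    have h2 : ∀ e, H.grad (ind X) e * H.dd (Pi.single v 1) e =
        (if e ∈ H.cutA X ∧ H.tl e = v then 1 else 0) -
          (if e ∈ H.cutA X ∧ H.tl (H.β e) = v then 1 else 0) := by
      intro e
      have := hs e
      by_cases a1 : H.a e ∈ X <;> by_cases a2 : H.b e ∈ X <;>
        simp_all [grad_apply, dd_apply, ind, mem_cutA, Pi.single_apply]
    simp only [h2, sum_sub_distrib, sum_boole, sub_eq_zero, Nat.cast_inj] at h1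
    convert h1 using 2 <;> ext e <;> simp
  have tinj : ∀ c ∈ H.cutA X, ∀ c' ∈ H.cutA X, H.tl c = H.tl c' → c = c' := by
    intro c h1 c' h2 h
    by_contra hne
    have a1 : ({c, c'} : Finset E).card ≤ ((H.cutA X).filter (fun x => H.tl x = H.tl c)).card :=
      card_le_card (by
        intro x hx
        rcases mem_insert.mp hx with rfl | hx
        · exact mem_filter.mpr ⟨h1, rfl⟩
        · rw [mem_singleton.mp hx]; exact mem_filter.mpr ⟨h2, h.symm⟩)
    have a2 : ((H.cutA X).filter (fun x => H.tl (H.β x) = H.tl c)).card ≤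
        (((H.cutA X).erase c).erase c').card := card_le_card (by
      intro x hx
      obtain ⟨b1, b2⟩ := mem_filter.mp hx
      refine mem_erase.mpr ⟨?_, mem_erase.mpr ⟨?_, b1⟩⟩
      · rintro rfl; exact tl_β_ne hc he _ (b2.trans h)
      · rintro rfl; exact tl_β_ne hc he _ b2)
    rw [card_erase_of_mem (mem_erase.mpr ⟨Ne.symm hne, h2⟩), card_erase_of_mem h1, h3] at a2
    rw [card_pair hne, hcirc] at a1
    omega
  have hch : ∀ c, ∃ c', c ∈ H.cutA X → c' ∈ H.cutA X ∧ H.tl (H.β c') = H.tl c := by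
    intro c
    by_cases h : c ∈ H.cutA X
    · have : 0 < ((H.cutA X).filter (fun x => H.tl (H.β x) = H.tl c)).card := by
        rw [← hcirc]; exact card_pos.mpr ⟨c, mem_filter.mpr ⟨h, rfl⟩⟩
      obtain ⟨c', h'⟩ := card_pos.mp this
      exact ⟨c', fun _ => mem_filter.mp h'⟩
    · exact ⟨c, fun h' => absurd h' h⟩
  choose δ hδ using hch
  have hne : ∀ c ∈ H.cutA X, δ c ≠ c := by
    intro c h1 h
    have := (hδ c h1).2
    rw [h] at this
    exact tl_β_ne hc he _ this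
  have key := three_cycle (H.cutA X) h3 δ (fun c h => (hδ c h).1) (fun c h1 c' h2 h => by
    apply tinj c h1 c' h2
    rw [← (hδ c h1).2, h, (hδ c' h2).2]) hne
  exact ⟨δ, hs, h3, fun c h => (hδ c h).1, fun c h => (hδ c h).2, tinj, hne,
    fun c h => (key c h).1, fun c h => (key c h).2⟩

variable {X : Finset (D ⊕ L)} {δ : E → E}

namespace CutData

variable (hd : H.CutData X δ)
include hd

theorem cutB_eq : H.cutB X = ∅ := by
  ext e; simp only [mem_cutB, notMem_empty, iff_false, not_and]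
  exact fun h h' => h (hd.side e h')

theorem cut_eq : H.cut X = H.cutA X := by
  ext e; rw [mem_cut, mem_cutA]; have := hd.side e; tauto

/-- the new rotation at light vertices -/
def w (_hd : H.CutData X δ) (e : E) : E := if H.b e ∈ X then H.ω e else δ e

theorem w_a {e : E} (he : H.a e ∈ X) : H.a (hd.w e) ∈ X := by
  unfold w
  split_ifs with h
  · exact hd.side _ (by simpa using h)
  · exact (H.mem_cutA.mp (hd.mem e (H.mem_cutA.mpr ⟨he, h⟩))).1

theorem w_in {e : E} (h : H.b e ∈ X) : hd.w e = H.ω e := if_pos h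

theorem w_out {e : E} (h : e ∈ H.cutA X) : hd.w e = δ e := if_neg (H.mem_cutA.mp h).2

theorem w3 {e : E} (he : H.a e ∈ X) : hd.w (hd.w (hd.w e)) = e := by
  by_cases h : H.b e ∈ X
  · rw [hd.w_in h, hd.w_in (e := H.ω e) (by simpa using h),
      hd.w_in (e := H.ω (H.ω e)) (by simpa using h), H.ω3]
  · have h1 := H.mem_cutA.mpr ⟨he, h⟩
    rw [hd.w_out h1, hd.w_out (hd.mem _ h1), hd.w_out (hd.mem _ (hd.mem _ h1)), hd.cube _ h1]

/-- the light end in the contracted map -/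
def lt1 (_hd : H.CutData X δ) (e : E) : Option {l : L // Sum.inr l ∈ X} :=
  if h : H.b e ∈ X then some ⟨H.lt e, h⟩ else none

theorem lt1_in {e : E} (h : H.b e ∈ X) : hd.lt1 e = some ⟨H.lt e, h⟩ := dif_pos h

theorem lt1_out {e : E} (h : H.b e ∉ X) : hd.lt1 e = none := dif_neg h

/-- the contracted map -/
def con : HM {e : E // H.a e ∈ X} {t : D // Sum.inl t ∈ X} (Option {l : L // Sum.inr l ∈ X})
    {v : V // ∃ e, H.a e ∈ X ∧ H.tl e = v} where
  β := H.β.subtypePerm (fun e => by simp)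
  ω :=
    { toFun := fun e => ⟨hd.w e.1, hd.w_a e.2⟩
      invFun := fun e => ⟨hd.w (hd.w e.1), hd.w_a (hd.w_a e.2)⟩
      left_inv := fun e => Subtype.ext (hd.w3 e.2)
      right_inv := fun e => Subtype.ext (hd.w3 e.2) }
  dk e := ⟨H.dk e.1, e.2⟩
  lt e := hd.lt1 e.1
  tl e := ⟨H.tl e.1, e.1, e.2, rfl⟩
  β3 e := Subtype.ext (H.β3 e.1)
  βne e h := H.βne e.1 (congrArg Subtype.val h)
  ω3 e := Subtype.ext (hd.w3 e.2)
  ωne e h := by
    have h1 : hd.w e.1 = e.1 := congrArg Subtype.val h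
    by_cases h2 : H.b e.1 ∈ X
    · rw [hd.w_in h2] at h1; exact H.ωne _ h1
    · have h3 := H.mem_cutA.mpr ⟨e.2, h2⟩
      rw [hd.w_out h3] at h1; exact hd.ne _ h3 h1
  dk_β e := Subtype.ext (H.dk_β e.1)
  dk_fib e e' h := by
    rcases H.dk_fib e.1 e'.1 (congrArg Subtype.val h) with h | h | h
    · exact Or.inl (Subtype.ext h)
    · exact Or.inr (Or.inl (Subtype.ext h))
    · exact Or.inr (Or.inr (Subtype.ext h))
  lt_ω e := by
    change hd.lt1 (hd.w e.1) = hd.lt1 e.1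
    by_cases h2 : H.b e.1 ∈ X
    · rw [hd.w_in h2, hd.lt1_in h2, hd.lt1_in (by simpa using h2)]
      simp [H.lt_ω]
    · have h3 := H.mem_cutA.mpr ⟨e.2, h2⟩
      rw [hd.w_out h3, hd.lt1_out h2, hd.lt1_out (H.mem_cutA.mp (hd.mem _ h3)).2]
  lt_fib e e' h := by
    simp only [Subtype.ext_iff]
    change e'.1 = e.1 ∨ e'.1 = hd.w e.1 ∨ e'.1 = hd.w (hd.w e.1)
    by_cases h2 : H.b e.1 ∈ X <;> by_cases h2' : H.b e'.1 ∈ X
    · rw [hd.lt1_in h2, hd.lt1_in h2'] at h
      rw [hd.w_in h2, hd.w_in (by simpa using h2)]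
      exact H.lt_fib _ _ (by simpa using h)
    · rw [hd.lt1_in h2, hd.lt1_out h2'] at h; simp at h
    · rw [hd.lt1_out h2, hd.lt1_in h2'] at h; simp at h
    · have h3 := H.mem_cutA.mpr ⟨e.2, h2⟩
      rw [hd.w_out h3, hd.w_out (hd.mem _ h3)]
      exact hd.fib _ h3 _ (H.mem_cutA.mpr ⟨e'.2, h2'⟩)
  dk_surj t := by
    obtain ⟨e, he⟩ := H.dk_surj t.1
    exact ⟨⟨e, by simpa [a, he] using t.2⟩, Subtype.ext he⟩
  lt_surj l := by
    rcases l with _ | l
    · obtain ⟨c, hc⟩ := card_pos.mp (show 0 < (H.cutA X).card by rw [hd.card]; norm_num)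
      exact ⟨⟨c, (H.mem_cutA.mp hc).1⟩, hd.lt1_out (H.mem_cutA.mp hc).2⟩
    · obtain ⟨e, he⟩ := H.lt_surj l.1
      have h1 : H.b e ∈ X := by simpa [b, he] using l.2
      refine ⟨⟨e, hd.side e h1⟩, ?_⟩
      change hd.lt1 e = _
      rw [hd.lt1_in h1]
      congr 1; exact Subtype.ext he
  tl_surj v := by
    obtain ⟨v, e, h1, rfl⟩ := v
    exact ⟨⟨e, h1⟩, rfl⟩
  face e := by
    apply Subtype.ext
    change H.tl (H.β (hd.w e.1)) = H.tl e.1
    by_cases h2 : H.b e.1 ∈ X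
    · rw [hd.w_in h2, H.face]
    · have h3 := H.mem_cutA.mpr ⟨e.2, h2⟩
      rw [hd.w_out h3, hd.hd _ h3]

omit hd in
/-- the projection of vertices -/
def pj (X : Finset (D ⊕ L)) : D ⊕ L → {t : D // Sum.inl t ∈ X} ⊕ Option {l : L // Sum.inr l ∈ X}
  | Sum.inl t => if h : Sum.inl t ∈ X then Sum.inl ⟨t, h⟩ else Sum.inr none
  | Sum.inr l => if h : Sum.inr l ∈ X then Sum.inr (some ⟨l, h⟩) else Sum.inr none

theorem pj_a (e : {e : E // H.a e ∈ X}) : pj X (H.a e.1) = hd.con.a e := dif_pos e.2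

theorem pj_b (e : {e : E // H.a e ∈ X}) : pj X (H.b e.1) = hd.con.b e := by
  change (if h : H.b e.1 ∈ X then _ else _) = Sum.inr (hd.lt1 e.1)
  by_cases h : H.b e.1 ∈ X
  · rw [dif_pos h, hd.lt1_in h]
  · rw [dif_neg h, hd.lt1_out h]

omit hd in
theorem pj_out {n : D ⊕ L} (h : n ∉ X) : pj X n = Sum.inr none := by
  rcases n with t | l
  · exact dif_neg h
  · exact dif_neg h

theorem pj_surj : Function.Surjective (pj X) := by
  rintro (t | l)
  · obtain ⟨e, rfl⟩ := hd.con.dk_surj t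
    exact ⟨_, hd.pj_a e⟩
  · obtain ⟨e, rfl⟩ := hd.con.lt_surj l
    exact ⟨_, hd.pj_b e⟩

theorem con_conn3 (hc : H.Conn3) : hd.con.Conn3 := by
  intro Y h1 h2
  have h3 := hc (univ.filter (fun n => pj X n ∈ Y)) (by
    obtain ⟨y, hy⟩ := nonempty_iff_ne_empty.mpr h1
    obtain ⟨n, rfl⟩ := hd.pj_surj y
    exact Finset.Nonempty.ne_empty ⟨n, by simpa using hy⟩) (by
    intro h
    apply h2
    rw [eq_univ_iff_forall] at h ⊢
    intro y
    obtain ⟨n, rfl⟩ := hd.pj_surj y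
    simpa using h n)
  refine h3.trans ((card_le_card ?_).trans (card_image_le (f := Subtype.val)))
  intro e he
  simp only [mem_cut, mem_filter, mem_univ, true_and] at he
  by_cases ha : H.a e ∈ X
  · refine mem_image.mpr ⟨⟨e, ha⟩, ?_, rfl⟩
    rw [mem_cut, ← hd.pj_a, ← hd.pj_b]; exact he
  · rw [pj_out ha, pj_out (fun h => ha (hd.side e h))] at he
    exact absurd Iff.rfl he

theorem con_euler (hc : H.Conn3) (he : H.Euler) : hd.con.Euler := by
  classical
  obtain ⟨c0, hc0⟩ := card_pos.mp (show 0 < (H.cutA X).card by rw [hd.card]; norm_num)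
  have : Nonempty E := ⟨c0⟩
  have : Nonempty {e : E // H.a e ∈ X} := ⟨⟨c0, (H.mem_cutA.mp hc0).1⟩⟩
  apply le_antisymm (hd.con_conn3 hc).conn.euler_le
  have d1 := disc hc.conn he X ⟨_, (H.mem_cutA.mp hc0).1⟩ (by
    rw [hd.cut_eq]
    intro f hf
    have h1 : ∀ c ∈ H.cutA X, f (H.tl (δ c)) = f (H.tl c) := fun c h => by
      rw [hf _ (hd.mem c h), hd.hd c h]
    refine ⟨f (H.tl c0), fun e h => ?_⟩
    rcases hd.fib c0 hc0 e h with rfl | rfl | rfl
    · rfl
    · exact h1 _ hc0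
    · rw [h1 _ (hd.mem _ hc0), h1 _ hc0])
  have e1 := H.ein_add_cutA X
  have e2 := H.ein_add_cutB X
  have e3 := card_toLeft_add_card_toRight (u := X)
  rw [hd.card] at e1
  rw [hd.cutB_eq, card_empty] at e2
  have e4 : Fintype.card {t : D // Sum.inl t ∈ X} = X.toLeft.card := by
    rw [Fintype.card_subtype]; congr 1; ext t; simp
  have e5 : (H.inn X ∪ (H.cutA X).image H.tl).card ≤
      Fintype.card {v : V // ∃ e, H.a e ∈ X ∧ H.tl e = v} := by
    rw [Fintype.card_subtype]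
    apply card_le_card
    intro v hv
    refine mem_filter.mpr ⟨mem_univ _, ?_⟩
    rcases mem_union.mp hv with h | h
    · obtain ⟨e, rfl⟩ := H.tl_surj v
      exact ⟨e, (H.mem_ein.mp (H.mem_inn.mp h e (Or.inl rfl))).1, rfl⟩
    · obtain ⟨c, h1, rfl⟩ := mem_image.mp h
      exact ⟨c, (H.mem_cutA.mp h1).1, rfl⟩
  rw [card_union_of_disjoint, card_image_of_injOn (fun c h c' h' => hd.tinj c h c' h'),
    hd.card] at e5
  · omega
  · rw [disjoint_left]
    intro v hv h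
    obtain ⟨c, h1, rfl⟩ := mem_image.mp h
    exact (H.mem_cutA.mp h1).2 (H.mem_ein.mp (H.mem_inn.mp hv c (Or.inl rfl))).2

end CutData

variable (H X) in
/-- a half of a perfect matching with connected complement -/
structure Half (M : Finset E) : Prop where
  sub : ∀ e ∈ M, H.a e ∈ X
  dark : ∀ t, Sum.inl t ∈ X → ∃! e, e ∈ M ∧ H.dk e = t
  light : ∀ l, Sum.inr l ∈ X → ∃! e, e ∈ M ∧ H.lt e = l
  cut : ∃! c, c ∈ M ∧ H.b c ∉ X
  conn : ∀ (Y : D ⊕ L → Prop) (y : Prop),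
    (∀ e, e ∉ M → H.a e ∈ X → H.b e ∈ X → (Y (H.a e) ↔ Y (H.b e))) →
    (∀ e, e ∉ M → H.a e ∈ X → H.b e ∉ X → (Y (H.a e) ↔ y)) → ∀ n ∈ X, (Y n ↔ y)

theorem CutData.half (hd : H.CutData X δ) (e1 : {e : E // H.a e ∈ X}) (hg : hd.con.Good e1) :
    ∃ M, e1.1 ∈ M ∧ H.Half X M := by
  classical
  obtain ⟨M1, h1, ⟨h2, h3⟩, h4⟩ := hg
  have hm : ∀ e : {e : E // H.a e ∈ X}, e.1 ∈ M1.image Subtype.val ↔ e ∈ M1 := fun e =>
    Subtype.val_injective.mem_finset_image
  have hsub : ∀ e ∈ M1.image Subtype.val, H.a e ∈ X := by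
    intro e he
    obtain ⟨e', -, rfl⟩ := mem_image.mp he
    exact e'.2
  refine ⟨M1.image Subtype.val, (hm _).mpr h1, hsub, ?_, ?_, ?_, ?_⟩
  · intro t ht
    obtain ⟨e, ⟨a1, a2⟩, a3⟩ := h2 ⟨t, ht⟩
    refine ⟨e.1, ⟨(hm _).mpr a1, congrArg Subtype.val a2⟩, fun e' h => ?_⟩
    exact congrArg Subtype.val (a3 ⟨e', hsub _ h.1⟩ ⟨(hm _).mp h.1, Subtype.ext h.2⟩)
  · intro l hl
    obtain ⟨e, ⟨a1, a2⟩, a3⟩ := h3 (some ⟨l, hl⟩)
    change hd.lt1 e.1 = _ at a2
    have hb : H.b e.1 ∈ X := by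
      by_contra h; rw [hd.lt1_out h] at a2; simp at a2
    rw [hd.lt1_in hb] at a2
    refine ⟨e.1, ⟨(hm _).mpr a1, by simpa using a2⟩, fun e' h => ?_⟩
    refine congrArg Subtype.val (a3 ⟨e', hsub _ h.1⟩ ⟨(hm _).mp h.1, ?_⟩)
    change hd.lt1 e' = _
    rw [hd.lt1_in (by simpa [b, h.2] using hl)]
    congr 1; exact Subtype.ext h.2
  · obtain ⟨e, ⟨a1, a2⟩, a3⟩ := h3 none
    change hd.lt1 e.1 = _ at a2
    refine ⟨e.1, ⟨(hm _).mpr a1, fun h => ?_⟩, fun e' h => ?_⟩
    · rw [hd.lt1_in h] at a2; simp at a2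
    · exact congrArg Subtype.val (a3 ⟨e', hsub _ h.1⟩ ⟨(hm _).mp h.1, hd.lt1_out h.2⟩)
  · intro Y y hin hout
    let Y1 : {t : D // Sum.inl t ∈ X} ⊕ Option {l : L // Sum.inr l ∈ X} → Prop := fun n =>
      match n with
      | Sum.inl t => Y (Sum.inl t.1)
      | Sum.inr (some l) => Y (Sum.inr l.1)
      | Sum.inr none => y
    have hY : ∀ n ∈ X, Y1 (CutData.pj X n) ↔ Y n := by
      rintro (t | l) h
      · simp [CutData.pj, h, Y1]
      · simp [CutData.pj, h, Y1]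
    have h5 := h4 (univ.filter Y1) (by
      intro e he
      by_contra hne
      apply hd.con.mem_cut.mp he
      simp only [mem_filter, mem_univ, true_and]
      rw [← hd.pj_a, ← hd.pj_b, hY _ e.2]
      have hne' : e.1 ∉ M1.image Subtype.val := fun h => hne ((hm _).mp h)
      by_cases hb : H.b e.1 ∈ X
      · rw [hY _ hb]; exact hin _ hne' e.2 hb
      · rw [CutData.pj_out hb]; exact hout _ hne' e.2 hb)
    intro n hn
    rw [← hY n hn]
    change _ ↔ Y1 (Sum.inr none)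
    rcases h5 with h5 | h5
    · rw [filter_eq_empty_iff] at h5
      exact iff_of_false (h5 (mem_univ _)) (h5 (mem_univ (Sum.inr none)))
    · rw [filter_eq_self] at h5
      exact iff_of_true (h5 _ (mem_univ _)) (h5 (Sum.inr none) (mem_univ _))

end HM

end Crest.Agent.R39
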