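import Crest.Agent.R39.Zsum

/-!
# Row 39: an acyclic pair of states gives a perfect matching with connected complement
-/

set_option autoImplicit false
set_option linter.unusedSectionVars false

namespace Crest.Agent.R39

open Finset Equiv

namespace HM

variable {E D L V : Type} {H : HM E D L V} {e0 : E}
variable [Fintype E] [Fintype D] [Fintype L] [Fintype V]
  [DecidableEq E] [DecidableEq D] [DecidableEq L] [DecidableEq V]

theorem IsPM.card_a {M : Finset E} (hM : H.IsPM M) (X : Finset (D ⊕ L)) :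
    (M.filter (fun e => H.a e ∈ X)).card = X.toLeft.card := by
  apply card_bij (fun e _ => H.dk e)
  · intro e he; exact mem_toLeft.mpr (mem_filter.mp he).2
  · intro e he e' he' h
    exact (hM.1 (H.dk e)).unique ⟨(mem_filter.mp he).1, rfl⟩ ⟨(mem_filter.mp he').1, h.symm⟩
  · intro t ht
    obtain ⟨e, ⟨h1, rfl⟩, -⟩ := hM.1 t
    exact ⟨e, mem_filter.mpr ⟨h1, mem_toLeft.mp ht⟩, rfl⟩

theorem IsPM.card_b {M : Finset E} (hM : H.IsPM M) (X : Finset (D ⊕ L)) :
    (M.filter (fun e => H.b e ∈ X)).card = X.toRight.card := by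
  apply card_bij (fun e _ => H.lt e)
  · intro e he; exact mem_toRight.mpr (mem_filter.mp he).2
  · intro e he e' he' h
    exact (hM.2 (H.lt e)).unique ⟨(mem_filter.mp he).1, rfl⟩ ⟨(mem_filter.mp he').1, h.symm⟩
  · intro t ht
    obtain ⟨e, ⟨h1, rfl⟩, -⟩ := hM.2 t
    exact ⟨e, mem_filter.mpr ⟨h1, mem_toRight.mp ht⟩, rfl⟩

theorem IsPM.card_a' {M : Finset E} (hM : H.IsPM M) (X : Finset (D ⊕ L)) :
    (univ.filter (fun e => H.a e ∈ X ∧ e ∉ M)).card = 2 * X.toLeft.card := by
  have h1 := H.card_a_mem X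
  have h2 := hM.card_a X
  have h3 := card_filter_add_card_filter_not (s := univ.filter (fun e => H.a e ∈ X))
    (fun e => e ∈ M)
  rw [filter_filter, filter_filter] at h3
  have h4 : univ.filter (fun e => H.a e ∈ X ∧ e ∈ M) = M.filter (fun e => H.a e ∈ X) := by
    ext e; simp [and_comm]
  rw [h4] at h3
  omega

theorem IsPM.card_b' {M : Finset E} (hM : H.IsPM M) (X : Finset (D ⊕ L)) :
    (univ.filter (fun e => H.b e ∈ X ∧ e ∉ M)).card = 2 * X.toRight.card := by
  have h1 := H.card_b_mem X
  have h2 := hM.card_b X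
  have h3 := card_filter_add_card_filter_not (s := univ.filter (fun e => H.b e ∈ X))
    (fun e => e ∈ M)
  rw [filter_filter, filter_filter] at h3
  have h4 : univ.filter (fun e => H.b e ∈ X ∧ e ∈ M) = M.filter (fun e => H.b e ∈ X) := by
    ext e; simp [and_comm]
  rw [h4] at h3
  omega

theorem const_of_acyclic {r : H.P e0 → E} {χ : H.P e0 → Bool} (hx : H.Valid e0 (r, χ))
    (hl : ∀ J, ¬ H.IsLoop (H.snd r χ) χ J) (f : V → ℝ)
    (h1 : ∀ e, H.dk e = H.dk e0 → f (H.tl e) = f (H.tl (H.β e)))
    (h2 : ∀ t, f (H.tl (H.β (r t))) = f (H.tl (H.β (H.β (r t))))) : ∃ c, ∀ v, f v = c := by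
  classical
  have hs : H.IsState e0 (H.snd r χ) := hx.2
  have hroot : ∀ v, H.root e0 v → f v = f (H.tl e0) := by
    intro v hv
    rcases root_iff.mp hv with rfl | rfl | rfl
    · rfl
    · exact (h1 e0 rfl).symm
    · rw [← h1 _ (H.dk_β _), ← h1 e0 rfl]
  have hw : ∀ t, f (H.tl (H.rot (χ t) (H.snd r χ t))) = f (H.tl (H.snd r χ t)) := by
    intro t
    simp only [snd, rot]
    cases χ t <;> simp [H.β3, h2]
  refine ⟨f (H.tl e0), fun v => ?_⟩
  by_cases hv : H.root e0 v
  · exact hroot v hv
  obtain ⟨t, rfl⟩ := hs.surj v hv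
  by_contra hne
  obtain ⟨J, hJ⟩ := exists_loop (p := H.snd r χ) (χ := χ)
    (J := univ.filter (fun t => f (H.tl (H.snd r χ t)) ≠ f (H.tl e0))) ⟨t, by simpa using hne⟩ (by
      intro u hu
      have hu' : f (H.tl (H.rot (χ u) (H.snd r χ u))) ≠ f (H.tl e0) := by
        rw [hw]; simpa using hu
      obtain ⟨u', h3⟩ := hs.surj _ (fun h => hu' (hroot _ h))
      exact ⟨u', by simpa [h3] using hu', h3.symm⟩)
  exact hl J hJ

theorem exists_matching (hc : H.Conn) (he : H.Euler) {r : H.P e0 → E} {χ : H.P e0 → Bool}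
    (hx : H.Valid e0 (r, χ)) (hl : ∀ J, ¬ H.IsLoop (H.snd r χ) χ J) :
    ∃ μ : H.P e0 → E, (∀ t, μ t = r t ∨ μ t = H.β (H.β (r t))) ∧
      (∀ t t', H.lt (μ t) = H.lt (μ t') → t = t') ∧ ∀ t, H.lt (μ t) ≠ H.lt e0 := by
  classical
  have : Nonempty E := ⟨e0⟩
  have hr : H.IsState e0 r := hx.1
  let N' : H.P e0 → Finset L := fun t => {H.lt (r t), H.lt (H.β (H.β (r t)))}
  obtain ⟨g, hg1, hg2⟩ := (all_card_le_biUnion_card_iff_exists_injective
    (fun t => (N' t).erase (H.lt e0))).mp (by
      intro S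
      rcases S.eq_empty_or_nonempty with rfl | ⟨t0, ht0⟩
      · simp
      have hdk2 : ∀ t, H.dk (H.β (H.β (r t))) = t.1 := fun t => by
        rw [H.dk_β, H.dk_β, hr.dk_eq]
      have key := G1 hc he (S.image r ∪ S.image (fun t => H.β (H.β (r t))))
        ((S.image Subtype.val).disjSum (S.biUnion N')) ⟨Sum.inl t0.1, by
          simp only [inl_mem_disjSum]; exact mem_image_of_mem _ ht0⟩ ?_ ∅ ?_
      · rw [card_union_of_disjoint, card_image_of_injective, card_image_of_injective,
          card_disjSum, card_image_of_injective _ Subtype.val_injective, card_empty] at key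
        · have h1 : S.biUnion (fun t => (N' t).erase (H.lt e0)) = (S.biUnion N').erase (H.lt e0) := by
            ext l; simp only [mem_biUnion, mem_erase]; tauto
          rw [h1]
          have := pred_card_le_card_erase (s := S.biUnion N') (a := H.lt e0)
          omega
        · intro t t' h
          have := congrArg H.dk h
          rw [hdk2, hdk2] at this; exact Subtype.ext this
        · intro t t' h
          have := congrArg H.dk h
          rw [hr.dk_eq, hr.dk_eq] at this; exact Subtype.ext this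
        · rw [disjoint_left]
          intro e h1 h2
          obtain ⟨t, -, rfl⟩ := mem_image.mp h1
          obtain ⟨t', -, h⟩ := mem_image.mp h2
          have := congrArg H.dk h
          rw [hdk2, hr.dk_eq] at this
          rw [Subtype.ext this] at h
          exact H.ββne _ h
      · intro e he
        rcases mem_union.mp he with h | h
        · obtain ⟨t, ht, rfl⟩ := mem_image.mp h
          refine ⟨?_, ?_⟩
          · simp only [a, inl_mem_disjSum, hr.dk_eq]; exact mem_image_of_mem _ ht
          · simp only [b, inr_mem_disjSum, mem_biUnion]; exact ⟨t, ht, by simp [N']⟩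
        · obtain ⟨t, ht, rfl⟩ := mem_image.mp h
          refine ⟨?_, ?_⟩
          · simp only [a, inl_mem_disjSum, hdk2]; exact mem_image_of_mem _ ht
          · simp only [b, inr_mem_disjSum, mem_biUnion]; exact ⟨t, ht, by simp [N']⟩
      · intro f hf
        obtain ⟨c, hc'⟩ := const_of_acyclic hx hl f (fun e he => hf e (by
          intro h
          rcases mem_union.mp h with h | h
          · obtain ⟨t, -, rfl⟩ := mem_image.mp h
            exact t.2 ((hr.dk_eq t).symm.trans he)
          · obtain ⟨t, -, rfl⟩ := mem_image.mp h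
            exact t.2 ((hdk2 t).symm.trans he))) (fun t => hf _ (by
          intro h
          rcases mem_union.mp h with h | h
          · obtain ⟨t', -, h⟩ := mem_image.mp h
            have := congrArg H.dk h
            rw [H.dk_β, hr.dk_eq, hr.dk_eq] at this
            rw [Subtype.ext this] at h
            exact H.βne _ h.symm
          · obtain ⟨t', -, h⟩ := mem_image.mp h
            have := congrArg H.dk h
            rw [hdk2, H.dk_β, hr.dk_eq] at this
            rw [Subtype.ext this] at h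
            exact H.βne _ h))
        exact ⟨c, fun v _ => hc' v⟩)
  have hch : ∀ t, ∃ e, (e = r t ∨ e = H.β (H.β (r t))) ∧ H.lt e = g t := by
    intro t
    have := (mem_erase.mp (hg2 t)).2
    simp only [N', mem_insert, mem_singleton] at this
    rcases this with h | h
    · exact ⟨_, Or.inl rfl, h.symm⟩
    · exact ⟨_, Or.inr rfl, h.symm⟩
  choose μ hμ1 hμ2 using hch
  refine ⟨μ, hμ1, fun t t' h => hg1 (by rw [← hμ2, ← hμ2, h]), fun t => ?_⟩
  rw [hμ2]; exact (mem_erase.mp (hg2 t)).1

theorem good_of_acyclic (hc : H.Conn) (he : H.Euler) {r : H.P e0 → E} {χ : H.P e0 → Bool}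
    (hx : H.Valid e0 (r, χ)) (hl : ∀ J, ¬ H.IsLoop (H.snd r χ) χ J) : H.Good e0 := by
  classical
  have : Nonempty E := ⟨e0⟩
  have hr : H.IsState e0 r := hx.1
  obtain ⟨μ, hμ1, hμ2, hμ3⟩ := exists_matching hc he hx hl
  have hμdk : ∀ t, H.dk (μ t) = t.1 := fun t => by
    rcases hμ1 t with h | h <;> simp [h, H.dk_β, hr.dk_eq]
  have hμinj : Function.Injective μ := fun t t' h => hμ2 _ _ (by rw [h])
  let M : Finset E := insert e0 (univ.image μ)
  have hmem : ∀ e, e ∈ M ↔ e = e0 ∨ ∃ t, μ t = e := fun e => by simp [M]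
  have hltinj : ∀ e ∈ M, ∀ e' ∈ M, H.lt e = H.lt e' → e = e' := by
    intro e he e' he' h
    rcases (hmem e).mp he with rfl | ⟨t, rfl⟩ <;> rcases (hmem e').mp he' with rfl | ⟨t', rfl⟩
    · rfl
    · exact absurd h.symm (hμ3 _)
    · exact absurd h (hμ3 _)
    · rw [hμ2 _ _ h]
  have hPM : H.IsPM M := by
    constructor
    · intro t
      by_cases ht : t = H.dk e0
      · refine ⟨e0, ⟨(hmem _).mpr (Or.inl rfl), ht.symm⟩, ?_⟩
        rintro e ⟨h1, h2⟩
        rcases (hmem e).mp h1 with rfl | ⟨u, rfl⟩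
        · rfl
        · exact absurd (by rw [← hμdk, h2, ht]) u.2
      · refine ⟨μ ⟨t, ht⟩, ⟨(hmem _).mpr (Or.inr ⟨_, rfl⟩), hμdk _⟩, ?_⟩
        rintro e ⟨h1, h2⟩
        rcases (hmem e).mp h1 with rfl | ⟨u, rfl⟩
        · exact absurd h2.symm ht
        · congr 1; exact Subtype.ext (by rw [← hμdk, h2])
    · intro l
      have hcard : (M.image H.lt).card = Fintype.card L := by
        rw [card_image_of_injOn (fun e he e' he' h => hltinj e he e' he' h), card_insert_of_notMem,
          card_image_of_injective _ hμinj, card_univ, card_P, H.card_L]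
        intro h
        obtain ⟨t, -, h⟩ := mem_image.mp h
        exact hμ3 t (by rw [h])
      have : l ∈ M.image H.lt := by rw [eq_univ_of_card _ hcard]; exact mem_univ _
      obtain ⟨e, h1, h2⟩ := mem_image.mp this
      exact ⟨e, ⟨h1, h2⟩, fun e' h => hltinj _ h.1 _ h1 (h.2.trans h2.symm)⟩
  refine ⟨M, (hmem _).mpr (Or.inl rfl), hPM, ?_⟩
  let Y : Finset (D ⊕ L) := univ.filter (fun n => ∀ X, H.cut X ⊆ M → H.a e0 ∈ X → n ∈ X)
  have hYmem : ∀ n, n ∈ Y ↔ ∀ X, H.cut X ⊆ M → H.a e0 ∈ X → n ∈ X := fun n => by simp [Y]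
  have hY0 : H.a e0 ∈ Y := (hYmem _).mpr (fun _ _ h => h)
  have hcl : ∀ X, H.cut X ⊆ M → ∀ e, e ∉ M → (H.a e ∈ X ↔ H.b e ∈ X) := by
    intro X hX e he
    by_contra h
    exact he (hX (H.mem_cut.mpr h))
  have hYcut : H.cut Y ⊆ M := by
    intro e he
    by_contra hne
    apply H.mem_cut.mp he
    rw [hYmem, hYmem]
    exact ⟨fun h X hX h0 => (hcl X hX e hne).mp (h X hX h0),
      fun h X hX h0 => (hcl X hX e hne).mpr (h X hX h0)⟩
  have hYu : Y = univ := by
    by_contra hne
    have hXne : (Yᶜ).Nonempty := by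
      rw [nonempty_iff_ne_empty]; intro h; exact hne ((compl_eq_empty_iff _).mp h)
    have key := G1 hc he (H.ein Yᶜ) Yᶜ hXne (fun e he => H.mem_ein.mp he) (H.inn Yᶜ) (by
      intro f hf
      obtain ⟨F, hFa, hFb⟩ := exists_val (H := H) f Y (fun e he => hf e (by
        rw [mem_ein]; simp only [mem_compl]; tauto))
      have hall : ∀ n ∈ Y, F n = F (H.a e0) := by
        intro n hn
        have := (hYmem n).mp hn (Y.filter (fun n => F n = F (H.a e0))) (by
          intro e he
          by_contra hne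
          apply H.mem_cut.mp he
          have h1 := hcl Y hYcut e hne
          simp only [mem_filter]
          by_cases h2 : H.a e ∈ Y
          · rw [hFa e h2, hFb e (h1.mp h2)]; tauto
          · tauto) (mem_filter.mpr ⟨hY0, rfl⟩)
        exact (mem_filter.mp this).2
      have hout : ∀ e, e ∉ H.ein Yᶜ → f (H.tl e) = F (H.a e0) := by
        intro e he
        rw [mem_ein, not_and_or, mem_compl, mem_compl, not_not, not_not] at he
        rcases he with h | h
        · rw [← hFa e h, hall _ h]
        · rw [← hFb e h, hall _ h]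
      refine ⟨F (H.a e0), fun v hv => ?_⟩
      rw [mem_inn] at hv
      push Not at hv
      obtain ⟨e, h1 | h1, h2⟩ := hv
      · rw [← h1, hout e h2]
      · rw [← h1, ← hf e h2, hout e h2])
    have hcl' := hcl Yᶜ (by rw [cut_compl]; exact hYcut)
    have c1 : ((H.ein Yᶜ).filter (fun e => e ∉ M)).card = 2 * (Yᶜ).toLeft.card := by
      rw [← hPM.card_a']
      congr 1; ext e
      simp only [mem_filter, mem_ein, mem_univ, true_and]
      have := hcl' e; tauto
    have c2 : ((H.ein Yᶜ).filter (fun e => e ∉ M)).card = 2 * (Yᶜ).toRight.card := by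
      rw [← hPM.card_b']
      congr 1; ext e
      simp only [mem_filter, mem_ein, mem_univ, true_and]
      have := hcl' e; tauto
    have c3 := card_filter_add_card_filter_not (s := H.ein Yᶜ) (fun e => e ∈ M)
    have c4 := card_toLeft_add_card_toRight (u := Yᶜ)
    have c5 : (H.inn Yᶜ).card ≤ ((H.ein Yᶜ).filter (fun e => e ∈ M)).card := by
      have hch : ∀ v, ∃ e, v ∈ H.inn Yᶜ → ∃ t, H.tl (r t) = v ∧ μ t = e := by
        intro v
        by_cases hv : v ∈ H.inn Yᶜ
        · have hnr : ¬ H.root e0 v := by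
            rintro ⟨e, h1, h2⟩
            have := (H.mem_ein.mp (H.mem_inn.mp hv e (Or.inl h2))).1
            apply mem_compl.mp this
            simpa [a, h1] using hY0
          obtain ⟨t, ht⟩ := hr.surj v hnr
          exact ⟨μ t, fun _ => ⟨t, ht, rfl⟩⟩
        · exact ⟨e0, fun h => absurd h hv⟩
      choose φ hφ using hch
      apply card_le_card_of_injOn φ
      · intro v hv
        have hv' : v ∈ H.inn Yᶜ := hv
        obtain ⟨t, h1, h2⟩ := hφ v hv'
        rw [← h2]
        refine mem_coe.mpr (mem_filter.mpr ⟨H.mem_inn.mp hv' _ ?_, (hmem _).mpr (Or.inr ⟨t, rfl⟩)⟩)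
        rcases hμ1 t with h | h
        · left; rw [h, h1]
        · right; rw [h, H.β3, h1]
      · intro v hv v' hv' h
        obtain ⟨t, h1, h2⟩ := hφ v hv
        obtain ⟨t', h1', h2'⟩ := hφ v' hv'
        rw [← h1, ← h1', hμinj (h2.trans (h.trans h2'.symm))]
    omega
  intro X hX
  by_cases h0 : H.a e0 ∈ X
  · right
    rw [eq_univ_iff_forall]
    intro n
    exact (hYmem n).mp (hYu ▸ mem_univ n) X hX h0
  · left
    rw [← compl_eq_univ_iff, eq_univ_iff_forall]
    intro n
    exact (hYmem n).mp (hYu ▸ mem_univ n) Xᶜ (by rw [cut_compl]; exact hX) (mem_compl.mpr h0)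

end HM

end Crest.Agent.R39
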