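import Crest.Agent.R39.Basic

/-!
# Row 39: Euler type inequalities for parts of a planar bicubic map
-/

set_option autoImplicit false
set_option linter.unusedSectionVars false

namespace Crest.Agent.R39

open Finset Equiv

theorem pair_expand {N E : Type} [Fintype N] [DecidableEq N] [Fintype E]
    (g : (N → ℝ) →ₗ[ℝ] (E → ℝ)) (y : E → ℝ) (h : N → ℝ) :
    ∑ e, y e * g h e = ∑ n, h n * ∑ e, y e * g (Pi.single n 1) e := by
  have hh : h = ∑ n, h n • (Pi.single n (1 : ℝ) : N → ℝ) := by
    funext k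
    simp [Finset.sum_apply, Pi.single_apply]
  conv_lhs => rw [hh]
  simp only [map_sum, map_smul, Finset.sum_apply, Pi.smul_apply, smul_eq_mul, mul_sum]
  rw [sum_comm]
  refine sum_congr rfl fun n _ => sum_congr rfl fun e _ => by ring

/-- if a functional kills the constants and all but one of the basis vectors, it vanishes -/
theorem pair_zero {N E : Type} [Fintype N] [DecidableEq N] [Fintype E]
    (g : (N → ℝ) →ₗ[ℝ] (E → ℝ)) (hg : g (fun _ => 1) = 0) (y : E → ℝ) (n0 : N)
    (hy : ∀ n, n ≠ n0 → ∑ e, y e * g (Pi.single n 1) e = 0) (h : N → ℝ) :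
    ∑ e, y e * g h e = 0 := by
  have h1 := pair_expand g y (fun _ => 1)
  rw [hg, sum_eq_single n0 (fun n _ hn => by rw [hy n hn, mul_zero]) (by simp)] at h1
  simp only [Pi.zero_apply, mul_zero, sum_const_zero, one_mul] at h1
  rw [pair_expand]
  refine sum_eq_zero fun n _ => ?_
  by_cases hn : n = n0
  · rw [hn, ← h1, mul_zero]
  · rw [hy n hn, mul_zero]

namespace HM

variable {E D L V : Type} {H : HM E D L V}
variable [Fintype E] [Fintype D] [Fintype L] [Fintype V]
  [DecidableEq E] [DecidableEq D] [DecidableEq L] [DecidableEq V]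

theorem grad_one : H.grad (fun _ => 1) = 0 := by funext e; simp [grad_apply]
theorem dd_one : H.dd (fun _ => 1) = 0 := by funext e; simp [dd_apply]

theorem G1 (hc : H.Conn) (he : H.Euler) [Nonempty E] (S : Finset E) (X : Finset (D ⊕ L))
    (hX : X.Nonempty) (hS : ∀ e ∈ S, H.a e ∈ X ∧ H.b e ∈ X) (I : Finset V)
    (hI : ∀ f : V → ℝ, (∀ e, e ∉ S → f (H.tl e) = f (H.tl (H.β e))) →
      ∃ c, ∀ v, v ∉ I → f v = c) :
    S.card + 1 ≤ X.card + I.card := by
  obtain ⟨n0, hn0⟩ := hX
  have key := card_le_of_detect S ((X.erase n0).disjSum I)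
    (Sum.elim (fun n => H.grad (Pi.single n 1)) (fun v => H.dd (Pi.single v 1))) ?_
  · rw [card_disjSum, card_erase_of_mem hn0] at key
    have := card_pos.mpr ⟨n0, hn0⟩
    omega
  intro y hy0 hy
  have h1 : ∀ h, ∑ e, y e * H.grad h e = 0 := by
    apply pair_zero H.grad grad_one y n0
    intro n hn
    by_cases hnX : n ∈ X
    · exact hy (Sum.inl n) (by simp [hn, hnX])
    · refine sum_eq_zero fun e _ => ?_
      by_cases heS : e ∈ S
      · have h1 : H.a e ≠ n := fun h => hnX (h ▸ (hS e heS).1)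
        have h2 : H.b e ≠ n := fun h => hnX (h ▸ (hS e heS).2)
        simp [grad_apply, h1, h2]
      · rw [hy0 e heS, zero_mul]
  obtain ⟨f, hf⟩ := hc.exact_dd he y (fun h => by simpa [mul_comm] using h1 h)
  obtain ⟨c, hc'⟩ := hI f (fun e heS => by
    have := hy0 e heS
    rw [← hf, dd_apply, sub_eq_zero] at this
    exact this)
  have hf' : H.dd (fun v => f v - c) = y := by
    rw [← hf]; funext e; simp [dd_apply]
  apply eq_zero_of_sum_mul_self
  have h2 := pair_expand H.dd y (fun v => f v - c)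
  rw [hf'] at h2
  rw [h2]
  refine sum_eq_zero fun v _ => ?_
  by_cases hv : v ∈ I
  · have := hy (Sum.inr v) (by simp [hv])
    simp only [Sum.elim_inr] at this
    rw [this, mul_zero]
  · rw [hc' v hv, sub_self, zero_mul]

theorem G2 (hc : H.Conn) (he : H.Euler) [Nonempty E] (S : Finset E) (U : Finset V)
    (hU : U.Nonempty) (hS : ∀ e ∈ S, H.tl e ∈ U ∧ H.tl (H.β e) ∈ U)
    {Q : Type} [Fintype Q] [DecidableEq Q] (comp : D ⊕ L → Q)
    (hQ : ∀ h : D ⊕ L → ℝ, (∀ e, e ∉ S → h (H.a e) = h (H.b e)) →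
      ∀ n n', comp n = comp n' → h n = h n') :
    S.card + 2 ≤ U.card + Fintype.card Q := by
  classical
  obtain ⟨v0, hv0⟩ := hU
  obtain ⟨e0⟩ := ‹Nonempty E›
  let g : (Q → ℝ) →ₗ[ℝ] (E → ℝ) := H.grad.comp (LinearMap.funLeft ℝ ℝ comp)
  have key := card_le_of_detect S ((U.erase v0).disjSum (univ.erase (comp (H.a e0))))
    (Sum.elim (fun v => H.dd (Pi.single v 1)) (fun R => g (Pi.single R 1))) ?_
  · rw [card_disjSum, card_erase_of_mem hv0, card_erase_of_mem (mem_univ _), card_univ] at key
    have := card_pos.mpr ⟨v0, hv0⟩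
    have : 0 < Fintype.card Q := Fintype.card_pos_iff.mpr ⟨comp (H.a e0)⟩
    omega
  intro y hy0 hy
  have : Nonempty E := ⟨e0⟩
  have h1 : ∀ f, ∑ e, y e * H.dd f e = 0 := by
    apply pair_zero H.dd dd_one y v0
    intro v hv
    by_cases hvU : v ∈ U
    · exact hy (Sum.inl v) (by simp [hv, hvU])
    · refine sum_eq_zero fun e _ => ?_
      by_cases heS : e ∈ S
      · have h1 : H.tl e ≠ v := fun h => hvU (h ▸ (hS e heS).1)
        have h2 : H.tl (H.β e) ≠ v := fun h => hvU (h ▸ (hS e heS).2)
        simp [dd_apply, h1, h2]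
      · rw [hy0 e heS, zero_mul]
  obtain ⟨h, hh⟩ := hc.exact_grad he y (fun f => by simpa [mul_comm] using h1 f)
  have hfac := hQ h (fun e heS => by
    have := hy0 e heS
    rw [← hh, grad_apply, sub_eq_zero] at this
    exact this)
  let k : Q → ℝ := fun R => if hR : ∃ n, comp n = R then h hR.choose - h (H.a e0) else 0
  have hk : ∀ n, k (comp n) = h n - h (H.a e0) := by
    intro n
    have hR : ∃ n', comp n' = comp n := ⟨n, rfl⟩
    simp only [k, dif_pos hR]
    rw [hfac _ _ hR.choose_spec]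
  have hgk : g k = y := by
    rw [← hh]; funext e
    simp only [g, LinearMap.comp_apply, grad_apply, LinearMap.funLeft_apply, hk]
    ring
  apply eq_zero_of_sum_mul_self
  have h2 := pair_expand g y k
  rw [hgk] at h2
  rw [h2]
  refine sum_eq_zero fun R _ => ?_
  by_cases hR : R = comp (H.a e0)
  · rw [hR, hk, sub_self, zero_mul]
  · have := hy (Sum.inr R) (by simp [hR])
    simp only [Sum.elim_inr] at this
    rw [this, mul_zero]

/-- the dual triangulation has no loops -/
theorem tl_β_ne (hc : H.Conn3) (he : H.Euler) (e : E) : H.tl (H.β e) ≠ H.tl e := by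
  classical
  intro hl
  have : Nonempty E := ⟨e⟩
  obtain ⟨h, hh⟩ := hc.conn.exact_grad he (Pi.single e 1) (fun f => by
    rw [sum_eq_single e (fun e' _ hne => by simp [hne]) (by simp)]
    simp [dd_apply, hl])
  have h1 : h (H.a e) - h (H.b e) = 1 := by simpa [grad_apply] using congrFun hh e
  have h2 : ∀ e', e' ≠ e → h (H.a e') = h (H.b e') := by
    intro e' hne
    simpa [grad_apply, Pi.single_apply, hne, sub_eq_zero] using congrFun hh e'
  have h3 := hc (univ.filter (fun n => h n = h (H.a e)))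
    (Finset.Nonempty.ne_empty ⟨H.a e, by simp⟩) (by
      intro hu
      have : H.b e ∈ univ.filter (fun n => h n = h (H.a e)) := by rw [hu]; simp
      simp only [mem_filter, mem_univ, true_and] at this
      rw [this] at h1; simp at h1)
  have h4 : H.cut (univ.filter (fun n => h n = h (H.a e))) ⊆ {e} := by
    intro e' he'
    rw [mem_singleton]
    by_contra hne
    simp [mem_cut, h2 e' hne] at he'
  have := card_le_card h4
  rw [card_singleton] at this
  omega

theorem tl_ββ_ne (hc : H.Conn3) (he : H.Euler) (e : E) : H.tl (H.β (H.β e)) ≠ H.tl e := by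
  have := tl_β_ne hc he (H.β (H.β e))
  rw [H.β3] at this
  exact this.symm

/-- the three corners of a dark triangle are different -/
theorem tl_inj (hc : H.Conn3) (he : H.Euler) {e e' : E} (h1 : H.dk e = H.dk e')
    (h2 : H.tl e = H.tl e') : e = e' := by
  rcases H.dk_fib e e' h1 with h | h | h
  · exact h.symm
  · exact absurd (h ▸ h2).symm (tl_β_ne hc he e)
  · exact absurd (h ▸ h2).symm (tl_ββ_ne hc he e)

variable (H)

theorem card_a_mem (X : Finset (D ⊕ L)) :
    (univ.filter (fun e => H.a e ∈ X)).card = 3 * X.toLeft.card := by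
  have := H.sum_dk (fun t => if t ∈ X.toLeft then 1 else 0 : D → ℕ)
  simp only [mem_toLeft, sum_boole, Nat.cast_id, smul_eq_mul] at this
  have h2 : univ.filter (fun t => Sum.inl t ∈ X) = X.toLeft := by ext t; simp
  rw [h2] at this
  exact this

theorem card_b_mem (X : Finset (D ⊕ L)) :
    (univ.filter (fun e => H.b e ∈ X)).card = 3 * X.toRight.card := by
  have := H.sum_lt (fun t => if t ∈ X.toRight then 1 else 0 : L → ℕ)
  simp only [mem_toRight, sum_boole, Nat.cast_id, smul_eq_mul] at this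
  have h2 : univ.filter (fun t => Sum.inr t ∈ X) = X.toRight := by ext t; simp
  rw [h2] at this
  exact this

/-- cut edges with dark end in `X` -/
def cutA (X : Finset (D ⊕ L)) : Finset E := univ.filter (fun e => H.a e ∈ X ∧ H.b e ∉ X)

/-- cut edges with light end in `X` -/
def cutB (X : Finset (D ⊕ L)) : Finset E := univ.filter (fun e => H.a e ∉ X ∧ H.b e ∈ X)

theorem mem_cutA {X : Finset (D ⊕ L)} {e : E} : e ∈ H.cutA X ↔ H.a e ∈ X ∧ H.b e ∉ X := by
  simp [cutA]

theorem mem_cutB {X : Finset (D ⊕ L)} {e : E} : e ∈ H.cutB X ↔ H.a e ∉ X ∧ H.b e ∈ X := by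
  simp [cutB]

theorem ein_add_cutA (X : Finset (D ⊕ L)) :
    (H.ein X).card + (H.cutA X).card = 3 * X.toLeft.card := by
  rw [← H.card_a_mem, ← card_filter_add_card_filter_not (s := univ.filter (fun e => H.a e ∈ X))
    (fun e => H.b e ∈ X), filter_filter, filter_filter]
  rfl

theorem ein_add_cutB (X : Finset (D ⊕ L)) :
    (H.ein X).card + (H.cutB X).card = 3 * X.toRight.card := by
  rw [← H.card_b_mem, ← card_filter_add_card_filter_not (s := univ.filter (fun e => H.b e ∈ X))
    (fun e => H.a e ∈ X), filter_filter, filter_filter]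
  congr 2
  · ext e; simp [mem_ein, and_comm]
  · ext e; simp [mem_cutB, and_comm]

theorem cutA_add_cutB (X : Finset (D ⊕ L)) :
    (H.cutA X).card + (H.cutB X).card = (H.cut X).card := by
  rw [← card_union_of_disjoint]
  · congr 1; ext e; simp only [mem_union, mem_cutA, mem_cutB, mem_cut]; tauto
  · rw [disjoint_left]; intro e h1 h2
    exact (H.mem_cutB.mp h2).1 (H.mem_cutA.mp h1).1

theorem ein_add_ein_compl (X : Finset (D ⊕ L)) :
    (H.ein X).card + (H.ein Xᶜ).card + (H.cut X).card = Fintype.card E := by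
  have h1 := H.ein_add_cutA X
  have h2 := H.ein_add_cutA Xᶜ
  have h3 := H.cutA_add_cutB X
  have h4 : H.cutA Xᶜ = H.cutB X := by ext e; simp [mem_cutA, mem_cutB]
  have h5 : Xᶜ.toLeft = X.toLeftᶜ := by ext t; simp
  have h6 := card_add_card_compl X.toLeft
  have h7 := H.card_E
  rw [h4, h5] at h2
  omega

variable {H}

/-- a face function that is constant across the edges at a vertex gives a value at that vertex -/
theorem exists_val {α : Type} (f : V → α) (Y : Finset (D ⊕ L))
    (hf : ∀ e, (H.a e ∈ Y ∨ H.b e ∈ Y) → f (H.tl e) = f (H.tl (H.β e))) :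
    ∃ F : D ⊕ L → α, (∀ e, H.a e ∈ Y → F (H.a e) = f (H.tl e)) ∧
      (∀ e, H.b e ∈ Y → F (H.b e) = f (H.tl e)) := by
  classical
  let F : D ⊕ L → α := fun n => match n with
    | Sum.inl t => f (H.tl (H.dk_surj t).choose)
    | Sum.inr l => f (H.tl (H.lt_surj l).choose)
  refine ⟨F, ?_, ?_⟩
  · intro e he
    have h := (H.dk_surj (H.dk e)).choose_spec
    change f (H.tl (H.dk_surj (H.dk e)).choose) = _
    rcases H.dk_fib _ _ h.symm with h1 | h1 | h1 <;> rw [h1]
    · exact (hf e (Or.inl he)).symm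
    · rw [← hf _ (Or.inl (by simpa using he)), ← hf _ (Or.inl he)]
  · have hω : ∀ e, H.b e ∈ Y → f (H.tl (H.ω e)) = f (H.tl e) := fun e he => by
      rw [hf _ (Or.inr (by simpa using he)), H.face]
    intro e he
    have h := (H.lt_surj (H.lt e)).choose_spec
    change f (H.tl (H.lt_surj (H.lt e)).choose) = _
    rcases H.lt_fib _ _ h.symm with h1 | h1 | h1 <;> rw [h1]
    · exact hω e he
    · rw [hω _ (by simpa using he), hω _ he]

/-- Euler's inequality for a region `X` whose boundary is connected in the dual -/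
theorem disc (hc : H.Conn) (he : H.Euler) [Nonempty E] (X : Finset (D ⊕ L)) (hX : X.Nonempty)
    (hb : ∀ f : V → ℝ, (∀ e ∈ H.cut X, f (H.tl e) = f (H.tl (H.β e))) →
      ∃ c, ∀ e ∈ H.cut X, f (H.tl e) = c) :
    (H.ein X).card + 1 ≤ X.card + (H.inn X).card := by
  classical
  refine G1 hc he (H.ein X) X hX (fun e he => H.mem_ein.mp he) (H.inn X) ?_
  intro f hf
  obtain ⟨c, hc'⟩ := hb f (fun e he => hf e (by
    rw [mem_cut] at he; rw [mem_ein]; tauto))
  obtain ⟨F, hFa, hFb⟩ := exists_val (H := H) f Xᶜ (fun e he => hf e (by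
    rw [mem_ein]; simp only [mem_compl] at he; tauto))
  simp only [mem_compl] at hFa hFb
  have hconst := hc.const (fun n => n ∈ X ∨ F n = c) (fun e => by
    by_cases h1 : H.a e ∈ X <;> by_cases h2 : H.b e ∈ X
    · simp [h1, h2]
    · have := hc' e (by rw [mem_cut]; tauto)
      simp [h1, h2, hFb e h2, this]
    · have := hc' e (by rw [mem_cut]; tauto)
      simp [h1, h2, hFa e h1, this]
    · simp [h1, h2, hFa e h1, hFb e h2])
  obtain ⟨n0, hn0⟩ := hX
  have hall : ∀ n, n ∉ X → F n = c := by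
    intro n hn
    have := hconst n0 n
    simp only [hn0, true_or, hn, false_or, eq_iff_iff, true_iff] at this
    exact this
  have hout : ∀ e, e ∉ H.ein X → f (H.tl e) = c := by
    intro e he
    rw [mem_ein, not_and_or] at he
    rcases he with h | h
    · rw [← hFa e h, hall _ h]
    · rw [← hFb e h, hall _ h]
  refine ⟨c, fun v hv => ?_⟩
  rw [mem_inn] at hv
  push Not at hv
  obtain ⟨e, h1 | h1, h2⟩ := hv
  · rw [← h1, hout e h2]
  · rw [← h1, ← hf e h2, hout e h2]

end HM

end Crest.Agent.R39
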