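import Crest.Agent.R39.State

/-!
# Row 39: the chirality sum of a loop is `± 3`, with the sign of a flux
-/

set_option autoImplicit false
set_option linter.unusedSectionVars false

namespace Crest.Agent.R39

open Finset Equiv

namespace HM

variable {E D L V : Type} {H : HM E D L V} {e0 : E}
variable [Fintype E] [Fintype D] [Fintype L] [Fintype V]
  [DecidableEq E] [DecidableEq D] [DecidableEq L] [DecidableEq V]

variable (H) in
/-- the edge between the corners `e` and `rot x e` -/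
def ed (x : Bool) (e : E) : E := if x then e else H.β (H.β e)

@[simp] theorem dk_ed (x : Bool) (e : E) : H.dk (H.ed x e) = H.dk e := by
  cases x <;> simp [ed, H.dk_β]

theorem ed_ends (x : Bool) (e : E) :
    (H.ed x e = e ∧ H.β (H.ed x e) = H.rot x e) ∨ (H.ed x e = H.rot x e ∧ H.β (H.ed x e) = e) := by
  cases x <;> simp [ed, rot, H.β3]

theorem sg_mul_dd (x : Bool) (e : E) (f : V → ℝ) :
    (sg x : ℝ) * H.dd f (H.ed x e) = f (H.tl e) - f (H.tl (H.rot x e)) := by
  cases x <;> simp [ed, rot, sg, dd_apply, H.β3]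

theorem sg_sq (x : Bool) : (sg x : ℝ) * sg x = 1 := by cases x <;> simp [sg]

/-- indicator function -/
def ind {N : Type} [DecidableEq N] (X : Finset N) : N → ℝ := fun n => if n ∈ X then 1 else 0

variable (H) in
/-- the chain of a loop -/
noncomputable def chain (p : H.P e0 → E) (χ : H.P e0 → Bool) (J : Finset (H.P e0)) : E → ℝ :=
  ∑ t ∈ J, Pi.single (H.ed (χ t) (p t)) (sg (χ t) : ℝ)

section

variable {p : H.P e0 → E} {χ : H.P e0 → Bool} {J : Finset (H.P e0)}

theorem ed_inj (hp : H.IsState e0 p) {t t' : H.P e0}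
    (h : H.ed (χ t) (p t) = H.ed (χ t') (p t')) : t = t' := by
  have := congrArg H.dk h
  rw [dk_ed, dk_ed, hp.dk_eq, hp.dk_eq] at this
  exact Subtype.ext this

theorem chain_ed (hp : H.IsState e0 p) {t : H.P e0} (ht : t ∈ J) :
    H.chain p χ J (H.ed (χ t) (p t)) = sg (χ t) := by
  unfold chain
  rw [Finset.sum_apply, sum_eq_single t]
  · simp
  · intro t' _ hne
    rw [Pi.single_apply, if_neg (fun h => hne (ed_inj hp h).symm)]
  · intro h; exact absurd ht h

theorem chain_off {e : E} (he : ∀ t ∈ J, H.ed (χ t) (p t) ≠ e) : H.chain p χ J e = 0 := by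
  unfold chain
  rw [Finset.sum_apply]
  refine sum_eq_zero fun t ht => ?_
  rw [Pi.single_apply, if_neg (he t ht).symm]

theorem sum_supp (hp : H.IsState e0 p) (F : E → ℝ)
    (hF : ∀ e, (∀ t ∈ J, H.ed (χ t) (p t) ≠ e) → F e = 0) :
    ∑ e, F e = ∑ t ∈ J, F (H.ed (χ t) (p t)) := by
  rw [← sum_image (s := J) (g := fun t => H.ed (χ t) (p t)) (f := F)
    (fun t _ t' _ h => ed_inj hp h)]
  symm
  apply sum_subset (subset_univ _)
  intro e _ he
  apply hF
  intro t ht h
  exact he (mem_image.mpr ⟨t, ht, h⟩)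

theorem exists_side (hc : H.Conn) (he : H.Euler) (hp : H.IsState e0 p) (hJ : H.IsLoop p χ J) :
    ∃ X : Finset (D ⊕ L), H.grad (ind X) = H.chain p χ J := by
  classical
  have : Nonempty E := ⟨e0⟩
  obtain ⟨nxt, hn1, hn2, hn3, hn4, hn5⟩ := hJ.exists_nxt
  obtain ⟨h, hh⟩ := hc.exact_grad he (H.chain p χ J) (fun f => by
    rw [sum_supp (χ := χ) (J := J) hp _ (fun e he => by rw [chain_off he, mul_zero])]
    have h1 : ∀ t ∈ J, H.dd f (H.ed (χ t) (p t)) * H.chain p χ J (H.ed (χ t) (p t)) =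
        f (H.tl (p t)) - f (H.tl (p (nxt t))) := fun t ht => by
      rw [chain_ed hp ht, mul_comm, sg_mul_dd, hn2 t ht]
    rw [sum_congr rfl h1, sum_sub_distrib, sub_eq_zero]
    symm
    exact sum_bij (fun t _ => nxt t) hn1 (fun t ht t' ht' h => hn3 t ht t' ht' h)
      (fun t' ht' => by obtain ⟨t, ht, h⟩ := hn4 t' ht'; exact ⟨t, ht, h⟩) (fun _ _ => rfl))
  obtain ⟨t1, ht1⟩ := hJ.ne
  let c : ℝ := if χ t1 then h (H.a (H.ed (χ t1) (p t1))) else h (H.b (H.ed (χ t1) (p t1)))
  let X : Finset (D ⊕ L) := univ.filter (fun n => h n = c)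
  have hoff : ∀ e, (∀ t ∈ J, H.ed (χ t) (p t) ≠ e) → H.grad (ind X) e = 0 := by
    intro e he
    have h1 := congrFun hh e
    rw [chain_off he, grad_apply, sub_eq_zero] at h1
    simp [grad_apply, ind, X, h1]
  let lam : H.P e0 → ℝ := fun t => sg (χ t) * H.grad (ind X) (H.ed (χ t) (p t))
  have hlam : ∀ t ∈ J, lam (nxt t) = lam t := by
    intro t ht
    have h1 := H.orth (ind X) (Pi.single (H.tl (p (nxt t))) 1)
    rw [sum_supp (χ := χ) (J := J) hp _ (fun e he => by rw [hoff e he, zero_mul])] at h1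
    have h2 : ∀ u ∈ J, H.grad (ind X) (H.ed (χ u) (p u)) *
        H.dd (Pi.single (H.tl (p (nxt t))) 1) (H.ed (χ u) (p u)) =
        (if u = nxt t then lam u else 0) - (if u = t then lam u else 0) := by
      intro u hu
      have h3 := sg_mul_dd (H := H) (χ u) (p u) (Pi.single (H.tl (p (nxt t))) 1)
      have h4 : (Pi.single (H.tl (p (nxt t))) (1 : ℝ) : V → ℝ) (H.tl (p u)) =
          if u = nxt t then 1 else 0 := by
        rw [Pi.single_apply]
        congr 1
        exact propext ⟨fun h => hp.inj _ _ h, fun h => by rw [h]⟩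
      have h5 : (Pi.single (H.tl (p (nxt t))) (1 : ℝ) : V → ℝ) (H.tl (H.rot (χ u) (p u))) =
          if u = t then 1 else 0 := by
        rw [Pi.single_apply, hn2 u hu]
        congr 1
        exact propext ⟨fun h => hn3 u hu t ht (hp.inj _ _ h), fun h => by rw [h]⟩
      rw [h4, h5] at h3
      have h6 := sg_sq (χ u)
      calc _ = (sg (χ u) * sg (χ u)) * (H.grad (ind X) (H.ed (χ u) (p u)) *
            H.dd (Pi.single (H.tl (p (nxt t))) 1) (H.ed (χ u) (p u))) := by rw [h6, one_mul]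
        _ = lam u * (sg (χ u) * H.dd (Pi.single (H.tl (p (nxt t))) 1) (H.ed (χ u) (p u))) := by
            simp only [lam]; ring
        _ = _ := by rw [h3]; split_ifs <;> simp
    rw [sum_congr rfl h2, sum_sub_distrib, sum_ite_eq' J, sum_ite_eq' J, if_pos (hn1 t ht),
      if_pos ht, sub_eq_zero] at h1
    exact h1
  have hlam1 : lam t1 = 1 := by
    have h1 := congrFun hh (H.ed (χ t1) (p t1))
    rw [chain_ed hp ht1, grad_apply] at h1
    simp only [lam, grad_apply, ind, X, mem_filter, mem_univ, true_and, c]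
    cases hχ : χ t1
    · rw [hχ] at h1
      have h2 : h (H.a (H.ed false (p t1))) ≠ h (H.b (H.ed false (p t1))) := by
        intro h3; rw [h3] at h1; simp [sg] at h1
      simp [sg, h2]
    · rw [hχ] at h1
      have h2 : h (H.b (H.ed true (p t1))) ≠ h (H.a (H.ed true (p t1))) := by
        intro h3; rw [h3] at h1; simp [sg] at h1
      simp [sg, h2]
  have hall := hn5 (fun t => lam t = 1) ⟨t1, ht1, hlam1⟩ (fun t ht h => by rw [hlam t ht, h])
  refine ⟨X, funext fun e => ?_⟩
  by_cases hex : ∃ t ∈ J, H.ed (χ t) (p t) = e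
  · obtain ⟨t, ht, rfl⟩ := hex
    rw [chain_ed hp ht]
    have h1 := hall t ht
    have h6 := sg_sq (χ t)
    calc _ = (sg (χ t) * sg (χ t)) * H.grad (ind X) (H.ed (χ t) (p t)) := by rw [h6, one_mul]
      _ = sg (χ t) * lam t := by simp only [lam]; ring
      _ = _ := by rw [h1, mul_one]
  · push Not at hex
    rw [hoff e hex, chain_off hex]

theorem side_count (hc : H.Conn) (he : H.Euler) (hp : H.IsState e0 p) (hJ : H.IsLoop p χ J)
    (X : Finset (D ⊕ L)) (hX : H.cut X = J.image (fun t => H.ed (χ t) (p t)))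
    (h0 : H.a e0 ∉ X) : X.toRight.card = X.toLeft.card + 1 := by
  classical
  have : Nonempty E := ⟨e0⟩
  obtain ⟨nxt, hn1, hn2, hn3, hn4, hn5⟩ := hJ.exists_nxt
  obtain ⟨t1, ht1⟩ := hJ.ne
  have hb : ∀ f : V → ℝ, (∀ e ∈ H.cut X, f (H.tl e) = f (H.tl (H.β e))) →
      ∃ c, ∀ e ∈ H.cut X, f (H.tl e) = c := by
    intro f hf
    have h1 : ∀ t ∈ J, f (H.tl (p t)) = f (H.tl (H.rot (χ t) (p t))) := by
      intro t ht
      have h2 := hf _ (hX ▸ mem_image_of_mem _ ht)
      rcases ed_ends (H := H) (χ t) (p t) with ⟨h3, h4⟩ | ⟨h3, h4⟩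
      · rw [h4, h3] at h2; exact h2
      · rw [h4, h3] at h2; exact h2.symm
    have h2 := hn5 (fun t => f (H.tl (p t)) = f (H.tl (p t1))) ⟨t1, ht1, rfl⟩
      (fun t ht h => by rw [← hn2 t ht, ← h1 t ht, h])
    refine ⟨f (H.tl (p t1)), fun e he => ?_⟩
    rw [hX] at he
    obtain ⟨t, ht, rfl⟩ := mem_image.mp he
    rcases ed_ends (H := H) (χ t) (p t) with ⟨h3, -⟩ | ⟨h3, -⟩
    · rw [h3, h2 t ht]
    · rw [h3, ← h1 t ht, h2 t ht]
  have hcut1 : H.ed (χ t1) (p t1) ∈ H.cut X := hX ▸ mem_image_of_mem _ ht1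
  have hXne : X.Nonempty := by
    rw [mem_cut] at hcut1
    by_cases h : H.a (H.ed (χ t1) (p t1)) ∈ X
    · exact ⟨_, h⟩
    · exact ⟨H.b (H.ed (χ t1) (p t1)), by tauto⟩
  have d1 := disc hc he X hXne hb
  have d2 := disc hc he Xᶜ ⟨H.a e0, mem_compl.mpr h0⟩ (by rw [cut_compl]; exact hb)
  have hcc : (H.cut X).card = J.card := by
    rw [hX]; exact card_image_of_injective _ (fun t t' h => ed_inj hp h)
  let VJ := J.image (fun t => H.tl (p t))
  have hVJ : VJ.card = J.card := card_image_of_injective _ (fun t t' h => hp.inj t t' h)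
  have hnot : ∀ Y : Finset (D ⊕ L), H.cut Y = H.cut X → Disjoint (H.inn Y) VJ := by
    intro Y hY
    rw [disjoint_left]
    intro v hv hv'
    obtain ⟨t, ht, rfl⟩ := mem_image.mp hv'
    have h1 : H.ed (χ t) (p t) ∈ H.cut Y := by rw [hY, hX]; exact mem_image_of_mem _ ht
    have h2 := H.mem_inn.mp hv (H.ed (χ t) (p t)) (by
      rcases ed_ends (H := H) (χ t) (p t) with ⟨h3, -⟩ | ⟨-, h3⟩
      · left; rw [h3]
      · right; rw [h3])
    rw [mem_cut] at h1; rw [mem_ein] at h2; tauto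
  have hdis : Disjoint (H.inn X) (H.inn Xᶜ) := by
    rw [disjoint_left]
    intro v hv hv'
    obtain ⟨e, rfl⟩ := H.tl_surj v
    have h1 := H.mem_ein.mp (H.mem_inn.mp hv e (Or.inl rfl))
    have h2 := H.mem_ein.mp (H.mem_inn.mp hv' e (Or.inl rfl))
    exact mem_compl.mp h2.1 h1.1
  have hU : (H.inn X ∪ H.inn Xᶜ ∪ VJ).card = (H.inn X).card + (H.inn Xᶜ).card + J.card := by
    rw [card_union_of_disjoint, card_union_of_disjoint hdis, hVJ]
    rw [disjoint_union_left]
    exact ⟨hnot X rfl, hnot Xᶜ (H.cut_compl X)⟩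
  have hle := card_le_univ (H.inn X ∪ H.inn Xᶜ ∪ VJ)
  have e1 := H.ein_add_ein_compl X
  have e2 := H.card_E
  have e3 := card_add_card_compl X
  rw [Fintype.card_sum, H.card_L] at e3
  have e4 : Fintype.card V = Fintype.card D + 2 := he
  have hall : H.inn X ∪ H.inn Xᶜ ∪ VJ = univ := by
    apply eq_univ_of_card; omega
  -- matching count
  let T : Finset (H.P e0) := univ.filter (fun t => Sum.inl t.1 ∈ X)
  have hT : T.card = X.toLeft.card := by
    apply card_bij (fun t _ => t.1)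
    · intro t ht; simpa [T] using ht
    · intro t _ t' _ h; exact Subtype.ext h
    · intro t ht
      refine ⟨⟨t, ?_⟩, by simpa [T] using ht, rfl⟩
      rintro rfl
      exact h0 (mem_toLeft.mp ht)
  have hpa : ∀ t, H.a (p t) = Sum.inl t.1 := fun t => by simp [a, hp.dk_eq]
  have hin : H.inn X = (T.filter (fun t => t ∉ J)).image (fun t => H.tl (p t)) := by
    ext v
    simp only [mem_image, mem_filter, T, mem_univ, true_and]
    constructor
    · intro hv
      have hnr : ¬ H.root e0 v := by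
        rintro ⟨e, h1, h2⟩
        have := (H.mem_ein.mp (H.mem_inn.mp hv e (Or.inl h2))).1
        apply h0
        simpa [a, h1] using this
      obtain ⟨t, rfl⟩ := hp.surj v hnr
      refine ⟨t, ⟨?_, fun ht => ?_⟩, rfl⟩
      · rw [← hpa]; exact (H.mem_ein.mp (H.mem_inn.mp hv _ (Or.inl rfl))).1
      · exact disjoint_left.mp (hnot X rfl) hv (mem_image_of_mem _ ht)
    · rintro ⟨t, ⟨h1, h2⟩, rfl⟩
      have : H.tl (p t) ∈ H.inn X ∪ H.inn Xᶜ ∪ VJ := by rw [hall]; exact mem_univ _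
      rcases mem_union.mp this with h | h
      · rcases mem_union.mp h with h | h
        · exact h
        · have := (H.mem_ein.mp (H.mem_inn.mp h _ (Or.inl rfl))).1
          rw [hpa] at this
          exact absurd h1 (mem_compl.mp this)
      · obtain ⟨u, hu, h3⟩ := mem_image.mp h
        exact absurd (hp.inj _ _ h3 ▸ hu) h2
  have hA : H.cutA X = (T.filter (fun t => t ∈ J)).image (fun t => H.ed (χ t) (p t)) := by
    ext e
    simp only [mem_image, mem_filter, T, mem_univ, true_and, mem_cutA]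
    have hea : ∀ t, H.a (H.ed (χ t) (p t)) = Sum.inl t.1 := fun t => by simp [a, hp.dk_eq]
    constructor
    · intro h
      have : e ∈ H.cut X := by rw [mem_cut]; tauto
      rw [hX] at this
      obtain ⟨t, ht, rfl⟩ := mem_image.mp this
      exact ⟨t, ⟨hea t ▸ h.1, ht⟩, rfl⟩
    · rintro ⟨t, ⟨h1, h2⟩, rfl⟩
      have : H.ed (χ t) (p t) ∈ H.cut X := hX ▸ mem_image_of_mem _ h2
      rw [mem_cut, hea] at this
      rw [hea]; tauto
  have c1 : (H.inn X).card = (T.filter (fun t => t ∉ J)).card := by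
    rw [hin]; exact card_image_of_injective _ (fun t t' h => hp.inj t t' h)
  have c2 : (H.cutA X).card = (T.filter (fun t => t ∈ J)).card := by
    rw [hA]; exact card_image_of_injective _ (fun t t' h => ed_inj hp h)
  have c3 := card_filter_add_card_filter_not (s := T) (fun t => t ∈ J)
  have c4 := H.ein_add_cutA X
  have c5 := card_toLeft_add_card_toRight (u := X)
  omega

theorem grad_ind_ne {X : Finset (D ⊕ L)} {e : E} : H.grad (ind X) e ≠ 0 ↔ e ∈ H.cut X := by
  rw [mem_cut, grad_apply]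
  by_cases h1 : H.a e ∈ X <;> by_cases h2 : H.b e ∈ X <;> simp [ind, h1, h2]

theorem exists_inside (hc : H.Conn) (he : H.Euler) (hp : H.IsState e0 p) (hJ : H.IsLoop p χ J) :
    ∃ (X : Finset (D ⊕ L)) (σ : ℝ), (σ = 1 ∨ σ = -1) ∧ H.chain p χ J = σ • H.grad (ind X) ∧
      H.a e0 ∉ X ∧ X.toRight.card = X.toLeft.card + 1 := by
  obtain ⟨X, hX⟩ := exists_side hc he hp hJ
  have hcut : H.cut X = J.image (fun t => H.ed (χ t) (p t)) := by
    ext e
    rw [← grad_ind_ne, hX, mem_image]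
    constructor
    · intro h
      by_contra hne
      push Not at hne
      exact h (chain_off hne)
    · rintro ⟨t, ht, rfl⟩
      rw [chain_ed hp ht]
      cases χ t <;> simp [sg]
  by_cases h0 : H.a e0 ∈ X
  · refine ⟨Xᶜ, -1, Or.inr rfl, ?_, by simpa using h0,
      side_count hc he hp hJ _ (by rw [cut_compl, hcut]) (by simpa using h0)⟩
    rw [← hX]
    funext e
    by_cases h1 : H.a e ∈ X <;> by_cases h2 : H.b e ∈ X <;> simp [grad_apply, ind, h1, h2]
  · exact ⟨X, 1, Or.inl rfl, by rw [hX, one_smul], h0, side_count hc he hp hJ _ hcut h0⟩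

end

theorem sum_ind_left (X : Finset (D ⊕ L)) :
    ∑ t, ind X (Sum.inl t) = (X.toLeft.card : ℝ) := by
  have h2 : univ.filter (fun t => Sum.inl t ∈ X) = X.toLeft := by ext t; simp
  simp only [ind, sum_boole, h2]

theorem sum_ind_right (X : Finset (D ⊕ L)) :
    ∑ t, ind X (Sum.inr t) = (X.toRight.card : ℝ) := by
  have h2 : univ.filter (fun t => Sum.inr t ∈ X) = X.toRight := by ext t; simp
  simp only [ind, sum_boole, h2]

theorem exists_flux (hc : H.Conn) (he : H.Euler) (e0 : E) :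
    ∃ A : E → ℝ, ∀ (p : H.P e0 → E) (χ : H.P e0 → Bool) (J : Finset (H.P e0)),
      H.IsState e0 p → H.IsLoop p χ J →
      (∑ t ∈ J, sg (χ t) = 3 ∧ 0 < ∑ t ∈ J, (A (p t) - A (H.rot (χ t) (p t)))) ∨
      (∑ t ∈ J, sg (χ t) = -3 ∧ ∑ t ∈ J, (A (p t) - A (H.rot (χ t) (p t))) < 0) := by
  classical
  let ψ : Module.Dual ℝ ((D ⊕ L) → ℝ) :=
    { toFun := fun h => (Fintype.card L : ℝ) * h (H.a e0) - ∑ l, h (Sum.inr l)
      map_add' := by intro h h'; simp [sum_add_distrib]; ring
      map_smul' := by intro c h; simp [← mul_sum]; ring }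
  have hψ : ψ ∈ LinearMap.range H.grad.dualMap := by
    rw [LinearMap.range_dualMap_eq_dualAnnihilator_ker, Submodule.mem_dualAnnihilator]
    intro h hh
    have h1 := hc.const h (fun e => by
      have := congrFun (LinearMap.mem_ker.mp hh) e
      simpa [grad_apply, sub_eq_zero] using this)
    change (Fintype.card L : ℝ) * h (H.a e0) - ∑ l, h (Sum.inr l) = 0
    rw [sum_congr rfl (fun l _ => h1 (Sum.inr l) (H.a e0))]
    simp
  obtain ⟨Λ, hΛ⟩ := hψ
  have hΛ' : ∀ h, Λ (H.grad h) = (Fintype.card L : ℝ) * h (H.a e0) - ∑ l, h (Sum.inr l) :=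
    fun h => LinearMap.congr_fun hΛ h
  let α : E → ℝ := fun e => Λ (Pi.single e 1)
  have hα : ∀ e, H.dk e ≠ H.dk e0 → α e + α (H.β e) + α (H.β (H.β e)) = 0 := by
    intro e hne
    have h1 := hΛ' (Pi.single (H.a e) 1)
    have h2 : H.grad (Pi.single (H.a e) 1) =
        ∑ e' ∈ univ.filter (fun e' => H.dk e' = H.dk e), Pi.single e' 1 := by
      funext e'
      simp [grad_apply, a, b, Finset.sum_apply, Pi.single_apply]
    rw [h2, map_sum, H.sum_fib_dk (fun e' => Λ (Pi.single e' 1))] at h1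
    rw [show α e + α (H.β e) + α (H.β (H.β e)) = _ from h1]
    simp [a, hne.symm]
  refine ⟨fun e => (α e - α (H.β (H.β e))) / 3, fun p χ J hp hJ => ?_⟩
  obtain ⟨X, σ, hσ, hX, h0, hcard⟩ := exists_inside hc he hp hJ
  have hΦ : ∑ t ∈ J, ((α (p t) - α (H.β (H.β (p t)))) / 3 -
      (α (H.rot (χ t) (p t)) - α (H.β (H.β (H.rot (χ t) (p t))))) / 3) = Λ (H.chain p χ J) := by
    unfold chain
    rw [map_sum]
    refine sum_congr rfl fun t _ => ?_
    have h1 := hα (p t) (by rw [hp.dk_eq]; exact t.2)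
    have h2 : (Pi.single (H.ed (χ t) (p t)) (sg (χ t) : ℝ) : E → ℝ) =
        (sg (χ t) : ℝ) • Pi.single (H.ed (χ t) (p t)) 1 := by
      rw [← Pi.single_smul]; simp
    rw [h2, map_smul]
    change _ = (sg (χ t) : ℝ) * α (H.ed (χ t) (p t))
    cases χ t
    · simp only [rot, ed, sg, H.β3, Bool.false_eq_true, if_false]
      push_cast; linarith
    · simp only [rot, ed, sg, H.β3, if_true]
      push_cast; linarith
  have hS : ((∑ t ∈ J, sg (χ t) : ℤ) : ℝ) = ∑ e, H.chain p χ J e := by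
    rw [sum_supp (χ := χ) (J := J) hp _ (fun e he => chain_off he)]
    push_cast
    exact sum_congr rfl fun t ht => (chain_ed hp ht).symm
  have hG : ∑ e, H.grad (ind X) e = -3 := by
    simp only [grad_apply, sum_sub_distrib]
    have h1 := H.sum_dk (fun t => ind X (Sum.inl t))
    have h2 := H.sum_lt (fun l => ind X (Sum.inr l))
    rw [sum_ind_left] at h1
    rw [sum_ind_right, hcard] at h2
    change ∑ e, ind X (Sum.inl (H.dk e)) - ∑ e, ind X (Sum.inr (H.lt e)) = _
    rw [h1, h2]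
    simp only [nsmul_eq_mul]; push_cast; ring
  have hL : Λ (H.grad (ind X)) = -((X.toLeft.card : ℝ) + 1) := by
    rw [hΛ', sum_ind_right, hcard]
    simp [ind, h0]
  rw [hΦ, hX, map_smul, hL]
  rw [hX] at hS
  simp only [Pi.smul_apply, smul_eq_mul, ← mul_sum, hG] at hS ⊢
  have hpos : (0 : ℝ) ≤ X.toLeft.card := Nat.cast_nonneg _
  rcases hσ with rfl | rfl
  · right
    refine ⟨?_, by linarith⟩
    have : ((∑ t ∈ J, sg (χ t) : ℤ) : ℝ) = ((-3 : ℤ) : ℝ) := by rw [hS]; norm_num
    exact_mod_cast this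
  · left
    refine ⟨?_, by linarith⟩
    have : ((∑ t ∈ J, sg (χ t) : ℤ) : ℝ) = ((3 : ℤ) : ℝ) := by rw [hS]; norm_num
    exact_mod_cast this

end HM

end Crest.Agent.R39
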