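import Crest.Agent.R39.Ham

/-!
# Row 39: existence of a pair of disjoint states in the cyclically 4-edge-connected case
-/

set_option autoImplicit false
set_option linter.unusedSectionVars false

namespace Crest.Agent.R39

open Finset Equiv

namespace HM

variable {E D L V : Type} {H : HM E D L V} {e0 : E}
variable [Fintype E] [Fintype D] [Fintype L] [Fintype V]
  [DecidableEq E] [DecidableEq D] [DecidableEq L] [DecidableEq V]

variable (H) in
/-- every 3-edge-cut is trivial -/
def Cyc4 : Prop := ∀ X : Finset (D ⊕ L), (H.cut X).card = 3 → X.card ≤ 1 ∨ Xᶜ.card ≤ 1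

variable (H) in
/-- edges with both faces in `U` -/
def eU (U : Finset V) : Finset E := univ.filter (fun e => H.tl e ∈ U ∧ H.tl (H.β e) ∈ U)

variable (H) in
/-- dark vertices with all faces in `U` -/
def d3 (U : Finset V) : Finset D := univ.filter (fun t => ∀ e, H.dk e = t → H.tl e ∈ U)

theorem key_ineq (hc : H.Conn3) (he : H.Euler) (h4 : H.Cyc4) [Nonempty E] (U : Finset V)
    (hU : U.Nonempty) :
    (H.eU U).card + 4 ≤ 2 * U.card + (H.d3 U).card ∨ (H.eU U).card + 1 ≤ U.card ∨
      (3 ≤ (H.eU U).card ∧ (H.eU U).card ≤ U.card) := by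
  classical
  let rel : D ⊕ L → D ⊕ L → Prop := fun n n' => ∃ e, e ∉ H.eU U ∧ n = H.a e ∧ n' = H.b e
  let Q := Quot rel
  have : Finite Q := Quot.finite rel
  let _ : Fintype Q := Fintype.ofFinite Q
  let comp : D ⊕ L → Q := Quot.mk rel
  have hG := G2 hc.conn he (H.eU U) U hU (fun e he => (mem_filter.mp he).2) comp (by
    intro h hh n n' hn
    have := congrArg (Quot.lift h (by rintro _ _ ⟨e, he, rfl, rfl⟩; exact hh e he)) hn
    exact this)
  let X : Q → Finset (D ⊕ L) := fun R => univ.filter (fun n => comp n = R)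
  have hXm : ∀ R n, n ∈ X R ↔ comp n = R := fun R n => by simp [X]
  have hcut : ∀ R, H.cut (X R) ⊆ H.eU U := by
    intro R e he
    by_contra hne
    apply H.mem_cut.mp he
    have : comp (H.a e) = comp (H.b e) := Quot.sound ⟨e, hne, rfl, rfl⟩
    rw [hXm, hXm, this]
  let pR : Q → ℕ := fun R => ((H.eU U).filter (fun e => comp (H.a e) = R)).card
  let qR : Q → ℕ := fun R => ((H.eU U).filter (fun e => comp (H.b e) = R)).card
  let sR : Q → ℕ := fun R => ((H.d3 U).filter (fun t => comp (Sum.inl t) = R)).card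
  have hp : ∑ R, pR R = (H.eU U).card := (card_eq_sum_card_fiberwise (fun _ _ => mem_univ _)).symm
  have hq : ∑ R, qR R = (H.eU U).card := (card_eq_sum_card_fiberwise (fun _ _ => mem_univ _)).symm
  have hs : ∑ R, sR R = (H.d3 U).card := (card_eq_sum_card_fiberwise (fun _ _ => mem_univ _)).symm
  by_cases hgood : ∀ R, 6 ≤ pR R + 2 * qR R + 3 * sR R
  · left
    have := sum_le_sum (s := univ) (fun R _ => hgood R)
    rw [sum_add_distrib, sum_add_distrib, ← mul_sum, ← mul_sum, hp, hq, hs, sum_const, card_univ,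
      smul_eq_mul] at this
    omega
  push Not at hgood
  obtain ⟨R, hR⟩ := hgood
  have hA : (H.cutA (X R)).card ≤ pR R := card_le_card (fun e he => by
    have h1 := H.mem_cutA.mp he
    exact mem_filter.mpr ⟨hcut R (H.mem_cut.mpr (by tauto)), (hXm _ _).mp h1.1⟩)
  have hB : (H.cutB (X R)).card ≤ qR R := card_le_card (fun e he => by
    have h1 := H.mem_cutB.mp he
    exact mem_filter.mpr ⟨hcut R (H.mem_cut.mpr (by tauto)), (hXm _ _).mp h1.2⟩)
  have hQ : Fintype.card Q ≤ 1 + ((X R)ᶜ).card := by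
    have h1 : (univ : Finset Q) ⊆ insert R (((X R)ᶜ).image comp) := by
      intro R' _
      obtain ⟨n, rfl⟩ := Quot.exists_rep R'
      by_cases hn : n ∈ X R
      · exact mem_insert.mpr (Or.inl ((hXm _ _).mp hn))
      · exact mem_insert.mpr (Or.inr (mem_image_of_mem _ (mem_compl.mpr hn)))
    have h2 := card_le_card h1
    have h3 := card_insert_le R (((X R)ᶜ).image comp)
    have h4 := card_image_le (s := (X R)ᶜ) (f := comp)
    rw [card_univ] at h2
    omega
  right
  by_cases hu : X R = univ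
  · left
    rw [hu, compl_univ, card_empty] at hQ
    omega
  right
  have hne : X R ≠ ∅ := by
    obtain ⟨n, hn⟩ := Quot.exists_rep R
    exact Finset.Nonempty.ne_empty ⟨n, (hXm _ _).mpr hn⟩
  have h3 := hc _ hne hu
  have e1 := H.ein_add_cutA (X R)
  have e2 := H.ein_add_cutB (X R)
  have e3 := H.cutA_add_cutB (X R)
  have e4 := card_toLeft_add_card_toRight (u := X R)
  have e5 := card_le_card (hcut R)
  rcases h4 (X R) (by omega) with h | h
  · exfalso
    have hD : (X R).toLeft.card = 1 := by omega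
    have hE : (H.ein (X R)).card = 0 := by omega
    obtain ⟨t, ht⟩ := card_eq_one.mp hD
    have htX : Sum.inl t ∈ X R := mem_toLeft.mp (by rw [ht]; exact mem_singleton_self _)
    have : 0 < sR R := card_pos.mpr ⟨t, mem_filter.mpr ⟨mem_filter.mpr ⟨mem_univ _, by
      intro e het
      have h1 : H.a e ∈ X R := by simpa [a, het] using htX
      have h2 : e ∉ H.ein (X R) := by rw [card_eq_zero.mp hE]; simp
      rw [mem_ein] at h2
      exact (mem_filter.mp (hcut R (H.mem_cut.mpr (by tauto)))).2.1⟩, (hXm _ _).mp htX⟩⟩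
    omega
  · omega

theorem local_count (U : Finset V) :
    (univ.filter (fun e => H.tl e ∈ U)).card + (H.d3 U).card =
      (univ.filter (fun t => ∃ e, H.dk e = t ∧ H.tl e ∈ U)).card + (H.eU U).card := by
  classical
  simp only [eU, d3, card_filter]
  rw [← sum_fiberwise (s := univ) (g := H.dk) (f := fun e => if H.tl e ∈ U then 1 else 0),
    ← sum_fiberwise (s := univ) (g := H.dk)
      (f := fun e => if H.tl e ∈ U ∧ H.tl (H.β e) ∈ U then 1 else 0),
    ← sum_add_distrib, ← sum_add_distrib]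
  refine sum_congr rfl fun t _ => ?_
  obtain ⟨e, rfl⟩ := H.dk_surj t
  rw [sum_fib_dk, sum_fib_dk, H.β3]
  have h1 : (∀ e', H.dk e' = H.dk e → H.tl e' ∈ U) ↔
      (H.tl e ∈ U ∧ H.tl (H.β e) ∈ U ∧ H.tl (H.β (H.β e)) ∈ U) := by
    constructor
    · intro h; exact ⟨h _ rfl, h _ (H.dk_β _), h _ (by rw [H.dk_β, H.dk_β])⟩
    · intro h e' he'
      rcases H.dk_fib e e' he'.symm with rfl | rfl | rfl <;> tauto
  have h2 : (∃ e', H.dk e' = H.dk e ∧ H.tl e' ∈ U) ↔
      (H.tl e ∈ U ∨ H.tl (H.β e) ∈ U ∨ H.tl (H.β (H.β e)) ∈ U) := by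
    constructor
    · rintro ⟨e', he', h⟩
      rcases H.dk_fib e e' he'.symm with rfl | rfl | rfl <;> tauto
    · rintro (h | h | h)
      · exact ⟨_, rfl, h⟩
      · exact ⟨_, H.dk_β _, h⟩
      · exact ⟨_, by rw [H.dk_β, H.dk_β], h⟩
  simp only [h1, h2]
  by_cases a1 : H.tl e ∈ U <;> by_cases a2 : H.tl (H.β e) ∈ U <;>
    by_cases a3 : H.tl (H.β (H.β e)) ∈ U <;> simp [a1, a2, a3]

variable (H e0) in
/-- number of corners at `v` outside the root triangle -/
def degP (v : V) : ℕ := (univ.filter (fun e => H.dk e ≠ H.dk e0 ∧ H.tl e = v)).card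

theorem two_le_degP (hc : H.Conn3) {v : V} (hv : ¬ H.root e0 v) : 2 ≤ H.degP e0 v := by
  obtain ⟨e, rfl⟩ := H.tl_surj v
  have hne : H.β (H.ω e) ≠ e := by
    intro h
    have hdk : H.dk (H.ω e) = H.dk e := by rw [← H.dk_β, h]
    have hX : ({H.a e, H.b e} : Finset (D ⊕ L)) = univ := by
      by_contra hne
      have h3 := hc _ (Finset.Nonempty.ne_empty (insert_nonempty _ _)) hne
      have e1 := H.ein_add_cutA {H.a e, H.b e}
      have e2 := H.ein_add_cutB {H.a e, H.b e}
      have e3 := H.cutA_add_cutB {H.a e, H.b e}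
      have l1 : ({H.a e, H.b e} : Finset (D ⊕ L)).toLeft = {H.dk e} := by ext; simp [a, b]
      have l2 : ({H.a e, H.b e} : Finset (D ⊕ L)).toRight = {H.lt e} := by ext; simp [a, b]
      rw [l1, card_singleton] at e1
      rw [l2, card_singleton] at e2
      have : ({e, H.ω e} : Finset E).card ≤ (H.ein {H.a e, H.b e}).card := card_le_card (by
        intro e' he'
        rcases mem_insert.mp he' with rfl | h'
        · simp [mem_ein]
        · rw [mem_singleton.mp h']; simp [mem_ein, a, hdk])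
      rw [card_pair (H.ωne e).symm] at this
      omega
    have : H.a e0 ∈ ({H.a e, H.b e} : Finset (D ⊕ L)) := by rw [hX]; exact mem_univ _
    simp only [a, b, mem_insert, Sum.inl.injEq, mem_singleton, reduceCtorEq, or_false] at this
    exact hv ⟨e, this.symm, rfl⟩
  have : ({e, H.β (H.ω e)} : Finset E).card ≤ H.degP e0 (H.tl e) := card_le_card (by
    intro e' he'
    have h1 : H.tl e' = H.tl e := by
      rcases mem_insert.mp he' with rfl | h'
      · rfl
      · rw [mem_singleton.mp h', H.face]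
    exact mem_filter.mpr ⟨mem_univ _, fun h => hv ⟨e', h, h1⟩, h1⟩)
  rwa [card_pair hne.symm] at this

variable (H e0) in
/-- capacity of a face -/
def cap (v : V) : ℕ := if H.root e0 v then H.degP e0 v else H.degP e0 v - 2

theorem sum_cap (hc : H.Conn3) (U : Finset V) :
    ∑ v ∈ U, H.cap e0 v + 2 * (U.filter (fun v => ¬ H.root e0 v)).card =
      (univ.filter (fun e => H.dk e ≠ H.dk e0 ∧ H.tl e ∈ U)).card := by
  rw [card_eq_sum_card_fiberwise (f := H.tl) (s := univ.filter _) (t := U)
    (fun e he => (mem_filter.mp he).2.2), card_filter, mul_sum, ← sum_add_distrib]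
  refine sum_congr rfl fun v hv => ?_
  have h1 : ((univ.filter (fun e => H.dk e ≠ H.dk e0 ∧ H.tl e ∈ U)).filter
      (fun e => H.tl e = v)).card = H.degP e0 v := by
    unfold degP
    congr 1; ext e
    simp only [mem_filter, mem_univ, true_and]
    constructor
    · tauto
    · rintro ⟨h1, h2⟩; exact ⟨⟨h1, h2 ▸ hv⟩, h2⟩
  rw [h1, cap]
  by_cases hr : H.root e0 v
  · simp [hr]
  · have := two_le_degP hc hr
    simp only [hr, if_false, not_false_eq_true, if_true]; omega

theorem sum_cap_univ (hc : H.Conn3) (he : H.Euler) :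
    ∑ v, H.cap e0 v = Fintype.card (H.P e0) := by
  have h1 := sum_cap (e0 := e0) hc univ
  rw [card_nroot hc he] at h1
  have h2 := card_filter_add_card_filter_not (s := (univ : Finset E)) (fun e => H.dk e = H.dk e0)
  rw [H.fib_dk, card_univ, H.card_E, card_eq_three.mpr ⟨_, _, _, (H.βne e0).symm,
    (H.ββne e0).symm, (H.βne (H.β e0)).symm, rfl⟩] at h2
  have h3 := card_P (H := H) (e0 := e0)
  simp only [mem_univ, and_true, ne_eq] at h1
  omega

theorem sum_cap_le (hc : H.Conn3) (he : H.Euler) (h4 : H.Cyc4) (U : Finset V) :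
    ∑ v ∈ U, H.cap e0 v ≤
      (univ.filter (fun t : H.P e0 => ∃ e, H.dk e = t.1 ∧ H.tl e ∈ U)).card := by
  classical
  have : Nonempty E := ⟨e0⟩
  rcases U.eq_empty_or_nonempty with rfl | hU
  · simp
  have k1 := key_ineq hc he h4 U hU
  have k2 := local_count (H := H) U
  have k3 := sum_cap (e0 := e0) hc U
  have k4 := card_filter_add_card_filter_not (s := U) (H.root e0)
  have k5 := card_filter_add_card_filter_not (s := univ.filter (fun e => H.tl e ∈ U))
    (fun e => H.dk e = H.dk e0)
  rw [filter_filter, filter_filter] at k5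
  have k6 : (univ.filter (fun e => H.tl e ∈ U ∧ ¬ H.dk e = H.dk e0)) =
      univ.filter (fun e => H.dk e ≠ H.dk e0 ∧ H.tl e ∈ U) := by ext e; simp [and_comm]
  have k7 : (univ.filter (fun e => H.tl e ∈ U ∧ H.dk e = H.dk e0)).card =
      (U.filter (H.root e0)).card := by
    apply card_bij (fun e _ => H.tl e)
    · intro e he
      have := (mem_filter.mp he).2
      exact mem_filter.mpr ⟨this.1, e, this.2, rfl⟩
    · intro e h1 e' h2 h
      exact tl_inj hc he ((mem_filter.mp h1).2.2.trans (mem_filter.mp h2).2.2.symm) h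
    · intro v hv
      obtain ⟨h1, e, h2, rfl⟩ := mem_filter.mp hv
      exact ⟨e, mem_filter.mpr ⟨mem_univ _, h1, h2⟩, rfl⟩
  have k8 : (U.filter (H.root e0)).card ≤ 3 := by
    rw [← card_root (e0 := e0) hc he]
    exact card_le_card (filter_subset_filter _ (subset_univ _))
  have k9 : (U.filter (H.root e0)).card = 3 → 1 ≤ (H.d3 U).card := by
    intro h
    have h1 : U.filter (H.root e0) = univ.filter (H.root e0) :=
      eq_of_subset_of_card_le (filter_subset_filter _ (subset_univ _))
        (by rw [h, card_root hc he])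
    refine card_pos.mpr ⟨H.dk e0, mem_filter.mpr ⟨mem_univ _, fun e h2 => ?_⟩⟩
    have : H.tl e ∈ U.filter (H.root e0) := by
      rw [h1]; exact mem_filter.mpr ⟨mem_univ _, e, h2, rfl⟩
    exact (mem_filter.mp this).1
  have k10 : (univ.filter (fun t => ∃ e, H.dk e = t ∧ H.tl e ∈ U)).card ≤
      (univ.filter (fun t : H.P e0 => ∃ e, H.dk e = t.1 ∧ H.tl e ∈ U)).card +
        min 1 (U.filter (H.root e0)).card := by
    have h1 := card_filter_add_card_filter_not
      (s := univ.filter (fun t => ∃ e, H.dk e = t ∧ H.tl e ∈ U)) (fun t => t = H.dk e0)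
    have h2 : ((univ.filter (fun t => ∃ e, H.dk e = t ∧ H.tl e ∈ U)).filter
        (fun t => ¬ t = H.dk e0)).card =
        (univ.filter (fun t : H.P e0 => ∃ e, H.dk e = t.1 ∧ H.tl e ∈ U)).card := by
      symm
      apply card_bij (fun t _ => t.1)
      · intro t ht
        exact mem_filter.mpr ⟨mem_filter.mpr ⟨mem_univ _, (mem_filter.mp ht).2⟩, t.2⟩
      · intro t _ t' _ h; exact Subtype.ext h
      · intro t ht
        obtain ⟨h1, h2⟩ := mem_filter.mp ht
        exact ⟨⟨t, h2⟩, mem_filter.mpr ⟨mem_univ _, (mem_filter.mp h1).2⟩, rfl⟩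
    have h3 : ((univ.filter (fun t => ∃ e, H.dk e = t ∧ H.tl e ∈ U)).filter
        (fun t => t = H.dk e0)).card ≤ min 1 (U.filter (H.root e0)).card := by
      rcases ((univ.filter (fun t => ∃ e, H.dk e = t ∧ H.tl e ∈ U)).filter
        (fun t => t = H.dk e0)).eq_empty_or_nonempty with h | ⟨t, ht⟩
      · rw [h]; simp
      · obtain ⟨h5, h6⟩ := mem_filter.mp ht
        obtain ⟨e, h7, h8⟩ := (mem_filter.mp h5).2
        have h9 : 0 < (U.filter (H.root e0)).card :=
          card_pos.mpr ⟨_, mem_filter.mpr ⟨h8, e, h7.trans h6, rfl⟩⟩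
        have h10 : ((univ.filter (fun t => ∃ e, H.dk e = t ∧ H.tl e ∈ U)).filter
            (fun t => t = H.dk e0)).card ≤ 1 := by
          apply card_le_one.mpr
          intro x hx y hy
          rw [(mem_filter.mp hx).2, (mem_filter.mp hy).2]
        omega
    omega
  rw [k6, k7] at k5
  omega

theorem exists_third (hc : H.Conn3) (he : H.Euler) (h4 : H.Cyc4) (e0 : E) :
    ∃ w : H.P e0 → E, (∀ t, H.dk (w t) = t.1) ∧
      ∀ v, (univ.filter (fun t => H.tl (w t) = v)).card = H.cap e0 v := by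
  classical
  let N : H.P e0 → Finset V := fun t => (univ.filter (fun e => H.dk e = t.1)).image H.tl
  obtain ⟨g, hg1, hg2⟩ := (all_card_le_biUnion_card_iff_exists_injective
    (fun t => (N t).sigma (fun v => range (H.cap e0 v)))).mp (by
      intro S
      have h1 : S.biUnion (fun t => (N t).sigma (fun v => range (H.cap e0 v))) =
          (S.biUnion N).sigma (fun v => range (H.cap e0 v)) := by
        ext x; simp only [mem_biUnion, mem_sigma]; tauto
      rw [h1, card_sigma]
      simp only [card_range]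
      have h2 := sum_add_sum_compl (S.biUnion N) (H.cap e0)
      rw [sum_cap_univ hc he] at h2
      have h3 := sum_cap_le (e0 := e0) hc he h4 (S.biUnion N)ᶜ
      have h5 : (univ.filter (fun t : H.P e0 => ∃ e, H.dk e = t.1 ∧ H.tl e ∈ (S.biUnion N)ᶜ)).card
          ≤ Sᶜ.card := card_le_card (by
        intro t ht
        obtain ⟨e, h6, h7⟩ := (mem_filter.mp ht).2
        rw [mem_compl] at h7 ⊢
        intro hS
        exact h7 (mem_biUnion.mpr ⟨t, hS, mem_image_of_mem _ (mem_filter.mpr ⟨mem_univ _, h6⟩)⟩))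
      have h6 := card_add_card_compl S
      omega)
  have hch : ∀ t, ∃ e, H.dk e = t.1 ∧ H.tl e = (g t).1 := by
    intro t
    obtain ⟨e, h1, h2⟩ := mem_image.mp (mem_sigma.mp (hg2 t)).1
    exact ⟨e, (mem_filter.mp h1).2, h2⟩
  choose w hw1 hw2 using hch
  refine ⟨w, hw1, fun v => ?_⟩
  have hle : ∀ v ∈ (univ : Finset V),
      (univ.filter (fun t => H.tl (w t) = v)).card ≤ H.cap e0 v := by
    intro v _
    rw [← card_range (H.cap e0 v)]
    apply card_le_card_of_injOn (fun t => (g t).2)
    · intro t ht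
      have h1 : H.tl (w t) = v := (mem_filter.mp (mem_coe.mp ht)).2
      have := (mem_sigma.mp (hg2 t)).2
      rw [← hw2, h1] at this
      exact this
    · intro t ht t' ht' h
      have h1 : H.tl (w t) = v := (mem_filter.mp (mem_coe.mp ht)).2
      have h2 : H.tl (w t') = v := (mem_filter.mp (mem_coe.mp ht')).2
      apply hg1
      refine Sigma.ext (by rw [← hw2, ← hw2, h1, h2]) (heq_of_eq h)
  refine (sum_eq_sum_iff_of_le hle).mp ?_ v (mem_univ v)
  rw [sum_cap_univ hc he, ← card_univ]
  exact (card_eq_sum_card_fiberwise (fun _ _ => mem_univ _)).symm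

theorem exists_valid (hc : H.Conn3) (he : H.Euler) (h4 : H.Cyc4) (e0 : E) :
    ∃ x, H.Valid e0 x := by
  classical
  obtain ⟨w, hw1, hw2⟩ := exists_third hc he h4 e0
  have hwinj : Function.Injective w := fun t t' h => Subtype.ext (by rw [← hw1, h, hw1])
  let F : Finset E := univ.filter (fun e => H.dk e ≠ H.dk e0 ∧ ∀ t, w t ≠ e)
  have hF : ∀ v, (F.filter (fun e => H.tl e = v)).card = if H.root e0 v then 0 else 2 := by
    intro v
    have h1 := card_filter_add_card_filter_not
      (s := univ.filter (fun e => H.dk e ≠ H.dk e0 ∧ H.tl e = v)) (fun e => ∀ t, w t ≠ e)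
    have h2 : (univ.filter (fun e => H.dk e ≠ H.dk e0 ∧ H.tl e = v)).filter
        (fun e => ∀ t, w t ≠ e) = F.filter (fun e => H.tl e = v) := by
      ext e; simp only [F, mem_filter, mem_univ, true_and]; tauto
    have h3 : (univ.filter (fun e => H.dk e ≠ H.dk e0 ∧ H.tl e = v)).filter
        (fun e => ¬ ∀ t, w t ≠ e) = (univ.filter (fun t => H.tl (w t) = v)).image w := by
      ext e
      simp only [mem_filter, mem_univ, true_and, mem_image, not_forall, not_not]
      constructor
      · rintro ⟨h, t, rfl⟩; exact ⟨t, h.2, rfl⟩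
      · rintro ⟨t, h, rfl⟩; exact ⟨⟨by rw [hw1]; exact t.2, h⟩, t, rfl⟩
    rw [h2, h3, card_image_of_injective _ hwinj, hw2] at h1
    change _ = H.degP e0 v at h1
    unfold cap at h1
    split_ifs at h1 ⊢ with hr
    · omega
    · have := two_le_degP hc hr; omega
  have hrotF : ∀ x t, H.rot x (w t) ∈ F := by
    intro x t
    refine mem_filter.mpr ⟨mem_univ _, by rw [dk_rot, hw1]; exact t.2, fun t' h => ?_⟩
    have : t' = t := Subtype.ext (by rw [← hw1, h, dk_rot, hw1])
    rw [this] at h
    exact H.rot_ne _ _ h.symm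
  have hnr : ∀ e ∈ F, ¬ H.root e0 (H.tl e) := by
    intro e he hr
    have h1 := hF (H.tl e)
    rw [if_pos hr, card_eq_zero] at h1
    have : e ∈ F.filter (fun e' => H.tl e' = H.tl e) := mem_filter.mpr ⟨he, rfl⟩
    rw [h1] at this; simp at this
  have hrot_inj : ∀ x x' t t', H.rot x (w t) = H.rot x' (w t') → t = t' := fun x x' t t' h =>
    Subtype.ext (by rw [← hw1, ← H.dk_rot x, h, dk_rot, hw1])
  let N : H.P e0 → Finset V := fun t => univ.image (fun x => H.tl (H.rot x (w t)))
  obtain ⟨g, hg1, hg2⟩ := (all_card_le_biUnion_card_iff_exists_injective N).mp (by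
    intro S
    have h1 : ((S ×ˢ (univ : Finset Bool)).image (fun y => H.rot y.2 (w y.1))).card =
        S.card * 2 := by
      rw [card_image_of_injective, card_product]
      · simp
      · rintro ⟨t, x⟩ ⟨t', x'⟩ h
        have h2 : t = t' := hrot_inj _ _ _ _ h
        subst h2
        have h3 : x = x' := H.rot_inj h
        rw [h3]
    have h2 : (S ×ˢ (univ : Finset Bool)).image (fun y => H.rot y.2 (w y.1)) ⊆
        (S.biUnion N).biUnion (fun v => F.filter (fun e => H.tl e = v)) := by
      intro e he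
      obtain ⟨⟨t, x⟩, h3, rfl⟩ := mem_image.mp he
      exact mem_biUnion.mpr ⟨_, mem_biUnion.mpr ⟨t, (mem_product.mp h3).1,
        mem_image_of_mem _ (mem_univ x)⟩, mem_filter.mpr ⟨hrotF _ _, rfl⟩⟩
    have h3 := (card_le_card h2).trans (card_biUnion_le_card_mul _ _ 2 (fun v _ => by
      rw [hF]; split_ifs <;> omega))
    omega)
  have hch : ∀ t, ∃ x, H.tl (H.rot x (w t)) = g t := fun t => by
    obtain ⟨x, -, h⟩ := mem_image.mp (hg2 t); exact ⟨x, h⟩
  choose χ hχ using hch
  have hr : H.IsState e0 (fun t => H.rot (χ t) (w t)) :=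
    IsState.mk' hc he (fun t => by rw [dk_rot, hw1]) (fun t t' h => hg1 (by rw [← hχ, ← hχ, h]))
      (fun t => hnr _ (hrotF _ _))
  have hsnd : H.snd (fun t => H.rot (χ t) (w t)) χ = fun t => H.rot (!χ t) (w t) := by
    funext t; simp only [snd, rot_rot]
  refine ⟨(fun t => H.rot (χ t) (w t), χ), hr, ?_⟩
  rw [hsnd]
  refine IsState.mk' hc he (fun t => by rw [dk_rot, hw1]) (fun t t' h => ?_)
    (fun t => hnr _ (hrotF _ _))
  by_contra hne
  obtain ⟨u, hu⟩ := hr.surj _ (hnr _ (hrotF (!χ t) t))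
  have hd : ∀ t, H.rot (!χ t) (w t) ≠ H.rot (χ u) (w u) := by
    intro t h
    have := hrot_inj _ _ _ _ h
    subst this
    simpa using H.rot_inj h
  have h1 : ({H.rot (!χ t) (w t), H.rot (!χ t') (w t'), H.rot (χ u) (w u)} : Finset E).card = 3 :=
    card_eq_three.mpr ⟨_, _, _, fun h => hne (hrot_inj _ _ _ _ h), hd t, hd t', rfl⟩
  have h2 : ({H.rot (!χ t) (w t), H.rot (!χ t') (w t'), H.rot (χ u) (w u)} : Finset E) ⊆
      F.filter (fun e => H.tl e = H.tl (H.rot (!χ t) (w t))) := by
    intro e he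
    simp only [mem_insert, mem_singleton] at he
    rcases he with rfl | rfl | rfl
    · exact mem_filter.mpr ⟨hrotF _ _, rfl⟩
    · exact mem_filter.mpr ⟨hrotF _ _, h.symm⟩
    · exact mem_filter.mpr ⟨hrotF _ _, hu⟩
  have h3 := card_le_card h2
  rw [h1, hF] at h3
  split_ifs at h3 <;> omega

theorem good_of_cyc4 (hc : H.Conn3) (he : H.Euler) (h4 : H.Cyc4) (e0 : E) : H.Good e0 := by
  obtain ⟨⟨r, χ⟩, hx, hl⟩ := exists_acyclic hc.conn he (exists_valid hc he h4 e0)
  exact good_of_acyclic hc.conn he hx hl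

end HM

end Crest.Agent.R39
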