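import Crest.Agent.R39.Contract

/-!
# Row 39: induction over 3-edge-cuts
-/

set_option autoImplicit false
set_option linter.unusedSectionVars false

namespace Crest.Agent.R39

open Finset Equiv

namespace HM

variable {E D L V : Type}

/-- exchange the two colour classes -/
def op (H : HM E D L V) : HM E L D V where
  β := H.ω
  ω := H.β
  dk := H.lt
  lt := H.dk
  tl e := H.tl (H.β e)
  β3 := H.ω3
  βne := H.ωne
  ω3 := H.β3
  ωne := H.βne
  dk_β := H.lt_ω
  dk_fib := H.lt_fib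
  lt_ω := H.dk_β
  lt_fib := H.dk_fib
  dk_surj := H.lt_surj
  lt_surj := H.dk_surj
  tl_surj := H.tl_surj.comp H.β.surjective
  face _ := H.face _

variable {H : HM E D L V}

theorem op_a (e : E) : H.op.a e = (H.b e).swap := rfl
theorem op_b (e : E) : H.op.b e = (H.a e).swap := rfl

variable [Fintype E] [Fintype D] [Fintype L] [Fintype V]
  [DecidableEq E] [DecidableEq D] [DecidableEq L] [DecidableEq V]

/-- exchange the summands -/
def sw {D L : Type} (X : Finset (D ⊕ L)) : Finset (L ⊕ D) :=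
  X.map (Equiv.sumComm D L).toEmbedding

theorem mem_sw {D L : Type} {X : Finset (D ⊕ L)} {n : L ⊕ D} : n ∈ sw X ↔ n.swap ∈ X := by
  simp [sw, mem_map_equiv]

theorem op_conn3 (hc : H.Conn3) : H.op.Conn3 := by
  intro X h1 h2
  have h3 := hc (sw X) (by simpa [sw] using h1) (by
    intro h; apply h2
    rw [eq_univ_iff_forall] at h ⊢
    intro n
    simpa [mem_sw] using h n.swap)
  convert h3 using 2
  ext e
  simp only [mem_cut, op_a, op_b, mem_sw]
  tauto

theorem op_euler (he : H.Euler) : H.op.Euler := by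
  unfold Euler at he ⊢
  rw [he, H.card_L]

theorem combine {X : Finset (D ⊕ L)} (hs : ∀ e, H.b e ∈ X → H.a e ∈ X)
    (h3 : (H.cutA X).card = 3) {M1 M2 : Finset E} (h1 : H.Half X M1)
    (h2 : H.op.Half (sw Xᶜ) M2) {c : E} (hc1 : c ∈ M1) (hc2 : c ∈ M2) {e0 : E}
    (he0 : e0 ∈ M1 ∪ M2) : H.Good e0 := by
  classical
  have s2 : ∀ e ∈ M2, H.b e ∉ X := fun e he => by
    simpa [op_a, mem_sw] using h2.sub e he
  have u1 : ∀ e ∈ M1, H.b e ∉ X → e = c := fun e he h =>
    h1.cut.unique ⟨he, h⟩ ⟨hc1, s2 c hc2⟩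
  have u2 : ∀ e ∈ M2, H.a e ∈ X → e = c := fun e he h =>
    h2.cut.unique ⟨he, by simpa [op_b, mem_sw] using h⟩
      ⟨hc2, by simpa [op_b, mem_sw] using h1.sub c hc1⟩
  have hPM : H.IsPM (M1 ∪ M2) := by
    constructor
    · intro t
      by_cases ht : Sum.inl t ∈ X
      · obtain ⟨e, ⟨a1, a2⟩, a3⟩ := h1.dark t ht
        refine ⟨e, ⟨mem_union_left _ a1, a2⟩, fun e' h => a3 e' ⟨?_, h.2⟩⟩
        rcases mem_union.mp h.1 with h' | h'
        · exact h'
        · rw [u2 e' h' (by simpa [a, h.2] using ht)]; exact hc1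
      · obtain ⟨e, ⟨a1, a2⟩, a3⟩ := h2.light t (by simpa [mem_sw] using ht)
        refine ⟨e, ⟨mem_union_right _ a1, a2⟩, fun e' h => a3 e' ⟨?_, h.2⟩⟩
        rcases mem_union.mp h.1 with h' | h'
        · exact absurd (by simpa [a, h.2] using h1.sub e' h') ht
        · exact h'
    · intro l
      by_cases hl : Sum.inr l ∈ X
      · obtain ⟨e, ⟨a1, a2⟩, a3⟩ := h1.light l hl
        refine ⟨e, ⟨mem_union_left _ a1, a2⟩, fun e' h => a3 e' ⟨?_, h.2⟩⟩
        rcases mem_union.mp h.1 with h' | h'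
        · exact h'
        · exact absurd (by simpa [b, h.2] using hl) (s2 e' h')
      · obtain ⟨e, ⟨a1, a2⟩, a3⟩ := h2.dark l (by simpa [mem_sw] using hl)
        refine ⟨e, ⟨mem_union_right _ a1, a2⟩, fun e' h => a3 e' ⟨?_, h.2⟩⟩
        rcases mem_union.mp h.1 with h' | h'
        · rw [u1 e' h' (by simpa [b, h.2] using hl)]; exact hc2
        · exact h'
  refine ⟨M1 ∪ M2, he0, hPM, fun Z hZ => ?_⟩
  have hcl : ∀ e, e ∉ M1 ∪ M2 → (H.a e ∈ Z ↔ H.b e ∈ Z) := by
    intro e he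
    by_contra h
    exact he (hZ (H.mem_cut.mpr h))
  have hcC : c ∈ H.cutA X := H.mem_cutA.mpr ⟨h1.sub c hc1, s2 c hc2⟩
  have hC : ∀ e, e ∈ (H.cutA X).erase c ↔ H.a e ∈ X ∧ H.b e ∉ X ∧ e ∉ M1 ∪ M2 := by
    intro e
    rw [mem_erase, mem_cutA, mem_union]
    constructor
    · rintro ⟨a1, a2, a3⟩
      exact ⟨a2, a3, fun h => h.elim (fun h => a1 (u1 e h a3)) (fun h => a1 (u2 e h a2))⟩
    · rintro ⟨a1, a2, a3⟩
      exact ⟨fun h => a3 (Or.inl (h ▸ hc1)), a1, a2⟩
  have hC2 : ((H.cutA X).erase c).card = 2 := by rw [card_erase_of_mem hcC, h3]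
  let T := ((H.cutA X).erase c).filter (fun e => H.a e ∈ Z)
  have hT : T.card % 2 = 0 := by
    have p1 := hPM.card_a' (Z ∩ X)
    have p2 := hPM.card_b' (Z ∩ X)
    have p3 := card_filter_add_card_filter_not
      (s := univ.filter (fun e => H.a e ∈ Z ∩ X ∧ e ∉ M1 ∪ M2)) (fun e => H.b e ∈ X)
    have p4 : (univ.filter (fun e => H.a e ∈ Z ∩ X ∧ e ∉ M1 ∪ M2)).filter (fun e => H.b e ∈ X) =
        univ.filter (fun e => H.b e ∈ Z ∩ X ∧ e ∉ M1 ∪ M2) := by
      ext e
      simp only [mem_filter, mem_univ, true_and, mem_inter]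
      have := hcl e; have := hs e; tauto
    have p5 : (univ.filter (fun e => H.a e ∈ Z ∩ X ∧ e ∉ M1 ∪ M2)).filter (fun e => H.b e ∉ X) =
        T := by
      ext e
      simp only [T, mem_filter, mem_univ, true_and, mem_inter, hC]
      tauto
    rw [p4, p5] at p3
    omega
  have hy : ∀ e ∈ (H.cutA X).erase c, (H.a e ∈ Z ↔ T.Nonempty) := by
    intro e he
    refine ⟨fun h => ⟨e, mem_filter.mpr ⟨he, h⟩⟩, fun h => ?_⟩
    have a1 := card_pos.mpr h
    have a2 : T = (H.cutA X).erase c := eq_of_subset_of_card_le (filter_subset _ _) (by omega)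
    rw [← a2] at he
    exact (mem_filter.mp he).2
  have k1 := h1.conn (fun n => n ∈ Z) T.Nonempty (fun e he a1 a2 => hcl e (by
    rw [mem_union]; rintro (h | h)
    · exact he h
    · exact s2 e h a2)) (fun e he a1 a2 => hy e ((hC e).mpr ⟨a1, a2, by
    rw [mem_union]; rintro (h | h)
    · exact he h
    · exact he (u2 e h a1 ▸ hc1)⟩))
  have k2 := h2.conn (fun n => n.swap ∈ Z) T.Nonempty (fun e he a1 a2 => by
    simp only [op_a, op_b, mem_sw, Sum.swap_swap, mem_compl] at a1 a2 ⊢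
    refine (hcl e ?_).symm
    rw [mem_union]; rintro (h | h)
    · exact a2 (h1.sub e h)
    · exact he h) (fun e he a1 a2 => by
    simp only [op_a, op_b, mem_sw, Sum.swap_swap, mem_compl, not_not] at a1 a2 ⊢
    have hm : e ∉ M1 ∪ M2 := by
      rw [mem_union]; rintro (h | h)
      · exact he (u1 e h a1 ▸ hc2)
      · exact he h
    rw [← hcl e hm]
    exact hy e ((hC e).mpr ⟨a2, a1, hm⟩))
  have hall : ∀ n, n ∈ Z ↔ T.Nonempty := by
    intro n
    by_cases hn : n ∈ X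
    · exact k1 n hn
    · simpa using k2 n.swap (by simpa [mem_sw] using hn)
  by_cases hTn : T.Nonempty
  · exact Or.inr (eq_univ_iff_forall.mpr fun n => (hall n).mpr hTn)
  · exact Or.inl (eq_empty_of_forall_notMem fun n h => hTn ((hall n).mp h))

end HM

open HM

/-- the induction hypothesis -/
def AllGood (n : ℕ) : Prop :=
  ∀ (E D L V : Type) [Fintype E] [Fintype D] [Fintype L] [Fintype V]
    [DecidableEq E] [DecidableEq D] [DecidableEq L] [DecidableEq V] (H : HM E D L V),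
    Fintype.card E < n → H.Conn3 → H.Euler → ∀ e0, H.Good e0

section

variable {E D L V : Type} {H : HM E D L V}
variable [Fintype E] [Fintype D] [Fintype L] [Fintype V]
  [DecidableEq E] [DecidableEq D] [DecidableEq L] [DecidableEq V]

theorem exists_half (ih : AllGood (Fintype.card E)) (hc : H.Conn3) (he : H.Euler)
    {X : Finset (D ⊕ L)} (hs : ∀ e, H.b e ∈ X → H.a e ∈ X) (h3 : (H.cutA X).card = 3)
    (h2 : 2 ≤ Xᶜ.card) (e1 : E) (h1 : H.a e1 ∈ X) : ∃ M, e1 ∈ M ∧ H.Half X M := by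
  classical
  obtain ⟨δ, hd⟩ := exists_cutData hc he hs h3
  refine hd.half ⟨e1, h1⟩ (ih _ _ _ _ hd.con ?_ (hd.con_conn3 hc) (hd.con_euler hc he) _)
  have a1 := H.ein_add_cutA Xᶜ
  have a2 := H.ein_add_cutB Xᶜ
  have a3 : H.cutA Xᶜ = H.cutB X := by ext e; simp [mem_cutA, mem_cutB]
  have a4 : H.cutB Xᶜ = H.cutA X := by ext e; simp [mem_cutA, mem_cutB]
  have a5 := card_toLeft_add_card_toRight (u := Xᶜ)
  rw [a3, hd.cutB_eq, card_empty] at a1
  rw [a4, h3] at a2
  obtain ⟨t, ht⟩ := card_pos.mp (show 0 < (Xᶜ).toLeft.card by omega)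
  obtain ⟨e, rfl⟩ := H.dk_surj t
  exact Fintype.card_subtype_lt (x := e) (mem_compl.mp (mem_toLeft.mp ht))

theorem step (ih : AllGood (Fintype.card E)) (hc : H.Conn3) (he : H.Euler)
    {X : Finset (D ⊕ L)} (hs : ∀ e, H.b e ∈ X → H.a e ∈ X) (h3 : (H.cutA X).card = 3)
    (h2 : 2 ≤ Xᶜ.card) (h2' : 2 ≤ X.card) (e0 : E) : H.Good e0 := by
  have hs' : ∀ e, H.op.b e ∈ sw Xᶜ → H.op.a e ∈ sw Xᶜ := by
    intro e
    simp only [op_a, op_b, mem_sw, Sum.swap_swap, mem_compl]
    exact fun h h' => h (hs e h')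
  have h3' : (H.op.cutA (sw Xᶜ)).card = 3 := by
    rw [← h3]; congr 1; ext e
    simp [mem_cutA, op_a, op_b, mem_sw, and_comm]
  have h2'' : 2 ≤ (sw Xᶜ)ᶜ.card := by
    have : (sw Xᶜ)ᶜ = sw X := by ext n; simp [mem_sw]
    rw [this, sw, card_map]; exact h2'
  have A := exists_half ih hc he hs h3 h2
  have B := exists_half (H := H.op) ih (op_conn3 hc) (op_euler he) hs' h3' h2''
  by_cases h0 : H.a e0 ∈ X
  · obtain ⟨M1, a1, a2⟩ := A e0 h0
    obtain ⟨c, ⟨a3, a4⟩, -⟩ := a2.cut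
    obtain ⟨M2, b1, b2⟩ := B c (by simpa [op_a, mem_sw] using a4)
    exact combine hs h3 a2 b2 a3 b1 (mem_union_left _ a1)
  · obtain ⟨M2, b1, b2⟩ := B e0 (by
      simp only [op_a, mem_sw, Sum.swap_swap, mem_compl]
      exact fun h => h0 (hs _ h))
    obtain ⟨c, ⟨b3, b4⟩, -⟩ := b2.cut
    obtain ⟨M1, a1, a2⟩ := A c (by simpa [op_b, mem_sw] using b4)
    exact combine hs h3 a2 b2 a1 b3 (mem_union_right _ b1)

end

theorem allGood (n : ℕ) : AllGood n := by
  induction n using Nat.strong_induction_on with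
  | _ n ih =>
    intro E D L V _ _ _ _ _ _ _ _ H hn hc he e0
    by_cases h4 : H.Cyc4
    · exact good_of_cyc4 hc he h4 e0
    unfold Cyc4 at h4
    push Not at h4
    obtain ⟨X, h1, h2, h3⟩ := h4
    have e1 := H.ein_add_cutA X
    have e2 := H.ein_add_cutB X
    have e3 := H.cutA_add_cutB X
    by_cases hB : (H.cutB X).card = 0
    · refine step (ih _ hn) hc he (X := X) (fun e h => ?_) (by omega) h3 h2 e0
      by_contra h'
      have : e ∈ H.cutB X := H.mem_cutB.mpr ⟨h', h⟩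
      rw [card_eq_zero.mp hB] at this; simp at this
    · have hA : (H.cutA X).card = 0 := by omega
      have a3 : H.cutA Xᶜ = H.cutB X := by ext e; simp [mem_cutA, mem_cutB]
      refine step (ih _ hn) hc he (X := Xᶜ) (fun e h => ?_) (by rw [a3]; omega)
        (by rw [compl_compl]; exact h2) h3 e0
      rw [mem_compl] at h ⊢
      intro h'
      have : e ∈ H.cutA X := H.mem_cutA.mpr ⟨h', h⟩
      rw [card_eq_zero.mp hA] at this; simp at this

end Crest.Agent.R39
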