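import Crest.Agent.R39.Ineq

/-!
# Row 39: states (bijections between inner dark triangles and non-root faces) and loops
-/

set_option autoImplicit false
set_option linter.unusedSectionVars false

namespace Crest.Agent.R39

open Finset Equiv

/-- sign of a Boolean -/
def sg (x : Bool) : ℤ := if x then 1 else -1

@[simp] theorem sg_not (x : Bool) : sg (!x) = - sg x := by cases x <;> simp [sg]

namespace HM

variable {E D L V : Type} (H : HM E D L V)

/-- dark vertices other than the root vertex -/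
abbrev P (e0 : E) : Type := {t : D // t ≠ H.dk e0}

/-- faces at the root vertex -/
def root (e0 : E) (v : V) : Prop := ∃ e, H.dk e = H.dk e0 ∧ H.tl e = v

/-- next or previous corner -/
def rot (x : Bool) (e : E) : E := if x then H.β e else H.β (H.β e)

@[simp] theorem dk_rot (x : Bool) (e : E) : H.dk (H.rot x e) = H.dk e := by
  cases x <;> simp [rot, H.dk_β]

theorem rot_ne (x : Bool) (e : E) : H.rot x e ≠ e := by
  cases x
  · exact H.ββne e
  · exact H.βne e

theorem rot_rot (x : Bool) (e : E) : H.rot x (H.rot x e) = H.rot (!x) e := by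
  cases x <;> simp [rot, H.β3]

theorem rot_not_rot (x : Bool) (e : E) : H.rot (!x) (H.rot x e) = e := by
  cases x <;> simp [rot, H.β3]

theorem rot_rot_not (x : Bool) (e : E) : H.rot x (H.rot (!x) e) = e := by
  cases x <;> simp [rot, H.β3]

theorem rot_inj {x y : Bool} {e : E} (h : H.rot x e = H.rot y e) : x = y := by
  cases x <;> cases y <;> simp only [rot, Bool.false_eq_true, if_true, if_false] at h ⊢
  · exact absurd (H.β.injective h) (H.βne e)
  · exact absurd (H.β.injective h).symm (H.βne e)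

/-- a state -/
structure IsState (e0 : E) (r : H.P e0 → E) : Prop where
  dk_eq : ∀ t, H.dk (r t) = t.1
  inj : ∀ t t', H.tl (r t) = H.tl (r t') → t = t'
  nroot : ∀ t, ¬ H.root e0 (H.tl (r t))
  surj : ∀ v, ¬ H.root e0 v → ∃ t, H.tl (r t) = v

/-- `J` is closed under passing from the `p`-corner to the next corner -/
def Closed {e0 : E} (p : H.P e0 → E) (χ : H.P e0 → Bool) (J : Finset (H.P e0)) : Prop :=
  ∀ t ∈ J, ∃ t' ∈ J, H.tl (H.rot (χ t) (p t)) = H.tl (p t')

/-- a minimal closed set -/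
structure IsLoop {e0 : E} (p : H.P e0 → E) (χ : H.P e0 → Bool) (J : Finset (H.P e0)) : Prop where
  ne : J.Nonempty
  closed : H.Closed p χ J
  min : ∀ J' ⊆ J, J'.Nonempty → H.Closed p χ J' → J' = J

variable {H} {e0 : E}

theorem exists_loop {p : H.P e0 → E} {χ : H.P e0 → Bool} {J : Finset (H.P e0)} (hne : J.Nonempty)
    (hc : H.Closed p χ J) : ∃ J', H.IsLoop p χ J' := by
  classical
  induction J using Finset.strongInduction with
  | H J ih =>
    by_cases h : ∀ J' ⊆ J, J'.Nonempty → H.Closed p χ J' → J' = J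
    · exact ⟨J, hne, hc, h⟩
    · push Not at h
      obtain ⟨J', h1, h2, h3, h4⟩ := h
      exact ih J' (Finset.ssubset_iff_subset_ne.mpr ⟨h1, h4⟩) h2 h3

theorem IsLoop.exists_nxt {p : H.P e0 → E} {χ : H.P e0 → Bool} {J : Finset (H.P e0)}
    (hJ : H.IsLoop p χ J) :
    ∃ nxt : H.P e0 → H.P e0, (∀ t ∈ J, nxt t ∈ J) ∧
      (∀ t ∈ J, H.tl (H.rot (χ t) (p t)) = H.tl (p (nxt t))) ∧
      (∀ t ∈ J, ∀ t' ∈ J, nxt t = nxt t' → t = t') ∧ (∀ t' ∈ J, ∃ t ∈ J, nxt t = t') ∧
      ∀ Q : H.P e0 → Prop, (∃ t ∈ J, Q t) → (∀ t ∈ J, Q t → Q (nxt t)) → ∀ t ∈ J, Q t := by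
  classical
  have hch : ∀ t, ∃ t', t ∈ J → t' ∈ J ∧ H.tl (H.rot (χ t) (p t)) = H.tl (p t') := by
    intro t
    by_cases ht : t ∈ J
    · obtain ⟨t', h1, h2⟩ := hJ.closed t ht
      exact ⟨t', fun _ => ⟨h1, h2⟩⟩
    · exact ⟨t, fun h => absurd h ht⟩
  choose nxt hn using hch
  have himg : J.image nxt = J := by
    apply hJ.min
    · intro t' ht'
      obtain ⟨t, ht, rfl⟩ := mem_image.mp ht'
      exact (hn t ht).1
    · exact hJ.ne.image _
    · intro t' ht'
      obtain ⟨t, ht, rfl⟩ := mem_image.mp ht'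
      exact ⟨nxt (nxt t), mem_image_of_mem _ (hn t ht).1, (hn _ (hn t ht).1).2⟩
  refine ⟨nxt, fun t ht => (hn t ht).1, fun t ht => (hn t ht).2, ?_, ?_, ?_⟩
  · have := card_image_iff.mp (show (J.image nxt).card = J.card by rw [himg])
    exact fun t ht t' ht' h => this ht ht' h
  · intro t' ht'
    rw [← himg] at ht'
    exact mem_image.mp ht'
  · rintro Q ⟨t0, ht0, hQ0⟩ hQ t ht
    have : J.filter Q = J := by
      apply hJ.min _ (filter_subset _ _) ⟨t0, mem_filter.mpr ⟨ht0, hQ0⟩⟩
      intro t ht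
      rw [mem_filter] at ht
      exact ⟨nxt t, mem_filter.mpr ⟨(hn t ht.1).1, hQ t ht.1 ht.2⟩, (hn t ht.1).2⟩
    rw [← this] at ht
    exact (mem_filter.mp ht).2

/-- changing a state on `J` without changing the set of faces used by `J` -/
theorem IsState.swap [DecidableEq V] {s s' : H.P e0 → E} (hs : H.IsState e0 s)
    (J : Finset (H.P e0)) (hdk : ∀ t, H.dk (s' t) = t.1) (hoff : ∀ t, t ∉ J → s' t = s t)
    (himg : J.image (fun t => H.tl (s' t)) = J.image (fun t => H.tl (s t))) :
    H.IsState e0 s' := by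
  have hin : ∀ t ∈ J, ∃ t' ∈ J, H.tl (s t') = H.tl (s' t) := fun t ht => by
    have : H.tl (s' t) ∈ J.image (fun t => H.tl (s t)) := himg ▸ mem_image_of_mem _ ht
    exact mem_image.mp this
  have hcard : (J.image (fun t => H.tl (s' t))).card = J.card := by
    rw [himg]; exact card_image_of_injective _ (fun t t' h => hs.inj t t' h)
  have hinj := card_image_iff.mp hcard
  refine ⟨hdk, ?_, ?_, ?_⟩
  · intro t t' h
    by_cases ht : t ∈ J <;> by_cases ht' : t' ∈ J
    · exact hinj ht ht' h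
    · obtain ⟨u, hu, h1⟩ := hin t ht
      rw [hoff t' ht', ← h1] at h
      exact absurd (hs.inj _ _ h ▸ hu) ht'
    · obtain ⟨u, hu, h1⟩ := hin t' ht'
      rw [hoff t ht, ← h1] at h
      exact absurd ((hs.inj _ _ h).symm ▸ hu) ht
    · rw [hoff t ht, hoff t' ht'] at h
      exact hs.inj _ _ h
  · intro t
    by_cases ht : t ∈ J
    · obtain ⟨u, -, h1⟩ := hin t ht
      rw [← h1]; exact hs.nroot u
    · rw [hoff t ht]; exact hs.nroot t
  · intro v hv
    obtain ⟨t, rfl⟩ := hs.surj v hv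
    by_cases ht : t ∈ J
    · have : H.tl (s t) ∈ J.image (fun t => H.tl (s' t)) := himg ▸ mem_image_of_mem _ ht
      obtain ⟨u, -, hu⟩ := mem_image.mp this
      exact ⟨u, hu⟩
    · exact ⟨t, by rw [hoff t ht]⟩

variable [Fintype E] [Fintype D] [Fintype L] [Fintype V]
  [DecidableEq E] [DecidableEq D] [DecidableEq L] [DecidableEq V]

instance (v : V) : Decidable (H.root e0 v) := by unfold root; infer_instance

theorem card_P : Fintype.card (H.P e0) + 1 = Fintype.card D := by
  rw [Fintype.card_subtype_compl, Fintype.card_subtype_eq]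
  have : 0 < Fintype.card D := Fintype.card_pos_iff.mpr ⟨H.dk e0⟩
  omega

theorem root_iff {v : V} :
    H.root e0 v ↔ v = H.tl e0 ∨ v = H.tl (H.β e0) ∨ v = H.tl (H.β (H.β e0)) := by
  constructor
  · rintro ⟨e, h1, rfl⟩
    rcases H.dk_fib e0 e h1.symm with h | h | h <;> simp [h]
  · rintro (rfl | rfl | rfl)
    · exact ⟨_, rfl, rfl⟩
    · exact ⟨_, H.dk_β _, rfl⟩
    · exact ⟨_, by rw [H.dk_β, H.dk_β], rfl⟩

theorem card_root (hc : H.Conn3) (he : H.Euler) : (univ.filter (H.root e0)).card = 3 := by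
  have : univ.filter (H.root e0) = {H.tl e0, H.tl (H.β e0), H.tl (H.β (H.β e0))} := by
    ext v; simp [root_iff]
  rw [this, card_eq_three]
  exact ⟨_, _, _, (tl_β_ne hc he e0).symm, (tl_ββ_ne hc he e0).symm,
    (tl_β_ne hc he (H.β e0)).symm, rfl⟩

theorem card_nroot (hc : H.Conn3) (he : H.Euler) :
    (univ.filter (fun v => ¬ H.root e0 v)).card = Fintype.card (H.P e0) := by
  have h1 := card_filter_add_card_filter_not (s := (univ : Finset V)) (H.root e0)
  rw [card_root hc he, card_univ] at h1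
  have h2 := card_P (H := H) (e0 := e0)
  unfold Euler at he
  omega

theorem IsState.mk' (hc : H.Conn3) (he : H.Euler) {r : H.P e0 → E}
    (h1 : ∀ t, H.dk (r t) = t.1) (h2 : ∀ t t', H.tl (r t) = H.tl (r t') → t = t')
    (h3 : ∀ t, ¬ H.root e0 (H.tl (r t))) : H.IsState e0 r := by
  refine ⟨h1, h2, h3, fun v hv => ?_⟩
  have hsub : univ.image (fun t => H.tl (r t)) ⊆ univ.filter (fun v => ¬ H.root e0 v) := by
    intro v hv
    obtain ⟨t, -, rfl⟩ := mem_image.mp hv
    simpa using h3 t
  have hcard : (univ.image (fun t => H.tl (r t))).card = Fintype.card (H.P e0) := by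
    rw [card_image_of_injective _ (fun t t' h => h2 t t' h), card_univ]
  have heq := eq_of_subset_of_card_le hsub (by rw [hcard, card_nroot hc he])
  have : v ∈ univ.image (fun t => H.tl (r t)) := by rw [heq]; simpa using hv
  obtain ⟨t, -, ht⟩ := mem_image.mp this
  exact ⟨t, ht⟩

end HM

end Crest.Agent.R39
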