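import Crest.Agent.R39.Loop

/-!
# Row 39: the signed sum over pairs of disjoint states
-/

set_option autoImplicit false
set_option linter.unusedSectionVars false

namespace Crest.Agent.R39

open Finset Equiv Polynomial

/-- `F = (i X)^c G` with `G(0) > 0` -/
def Pos (c : ℕ) (F : ℂ[X]) : Prop :=
  ∃ (G : ℂ[X]) (x : ℝ), 0 < x ∧ F = (C Complex.I * X) ^ c * G ∧ G.coeff 0 = x

theorem Pos.prod {ι : Type} (s : Finset ι) (F : ι → ℂ[X]) (h : ∀ i ∈ s, Pos 1 (F i)) :
    Pos s.card (∏ i ∈ s, F i) := by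
  classical
  induction s using Finset.induction_on with
  | empty => exact ⟨1, 1, one_pos, by simp, by simp⟩
  | insert i s hi ih =>
    obtain ⟨G, x, hx, h1, h2⟩ := ih (fun j hj => h j (mem_insert_of_mem hj))
    obtain ⟨G', x', hx', h1', h2'⟩ := h i (mem_insert_self _ _)
    refine ⟨G' * G, x' * x, mul_pos hx' hx, ?_, ?_⟩
    · rw [prod_insert hi, card_insert_of_notMem hi, h1, h1']; ring
    · rw [mul_coeff_zero, h2, h2']; push_cast; rfl

theorem sum_pos_ne_zero {ι : Type} (s : Finset ι) (hs : s.Nonempty) (F : ι → ℂ[X])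
    (h : ∀ i ∈ s, ∃ c, Pos c (F i)) : ∑ i ∈ s, F i ≠ 0 := by
  classical
  choose! c hc using h
  choose! G x hx h1 h2 using hc
  obtain ⟨i0, hi0, hmin⟩ := exists_min_image s c hs
  intro h0
  have h3 := congrArg (fun P => Polynomial.coeff P (c i0)) h0
  simp only [finsetSum_coeff, coeff_zero] at h3
  have h4 : ∀ i ∈ s, (F i).coeff (c i0) =
      Complex.I ^ c i0 * ((if c i = c i0 then x i else 0 : ℝ) : ℂ) := by
    intro i hi
    rw [h1 i hi, mul_pow, ← C_pow, mul_assoc, coeff_C_mul, coeff_X_pow_mul']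
    by_cases hci : c i = c i0
    · simp [hci, h2 i hi]
    · have := hmin i hi
      rw [if_neg (by omega), if_neg hci]; simp
  rw [sum_congr rfl h4, ← mul_sum, mul_eq_zero, ← Complex.ofReal_sum, Complex.ofReal_eq_zero] at h3
  rcases h3 with h3 | h3
  · exact Complex.I_ne_zero (pow_eq_zero_iff' .. |>.mp h3).1
  · have : 0 < ∑ i ∈ s, (if c i = c i0 then x i else 0 : ℝ) := by
      apply sum_pos'
      · intro i hi; split_ifs
        · exact (hx i hi).le
        · exact le_rfl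
      · exact ⟨i0, hi0, by simpa using hx i0 hi0⟩
    linarith

theorem prod_expand {ι : Type} (s : Finset ι) (a : ι → ℂ) :
    ∃ R : ℂ[X], ∏ i ∈ s, (1 + C (a i) * X) = 1 + C (∑ i ∈ s, a i) * X + X ^ 2 * R := by
  classical
  induction s using Finset.induction_on with
  | empty => exact ⟨0, by simp⟩
  | insert i s hi ih =>
    obtain ⟨R, hR⟩ := ih
    refine ⟨R + C (a i) * C (∑ i ∈ s, a i) + C (a i) * X * R, ?_⟩
    rw [prod_insert hi, sum_insert hi, hR, C_add]; ring

theorem prod_zpow_eq {ι : Type} (s : Finset ι) {ζ : ℂ} (hζ : ζ ≠ 0) (k : ι → ℤ) :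
    ∏ i ∈ s, C (ζ ^ k i) = C (ζ ^ ∑ i ∈ s, k i) := by
  classical
  induction s using Finset.induction_on with
  | empty => simp
  | insert i s hi ih => rw [prod_insert hi, sum_insert hi, ih, zpow_add₀ hζ, C_mul]

theorem zeta_facts {ζ : ℂ} (h : ζ ^ 3 = Complex.I) :
    ζ ≠ 0 ∧ ζ ^ (3 : ℤ) = Complex.I ∧ ζ ^ (-3 : ℤ) = -Complex.I := by
  have h3 : ζ ^ (3 : ℤ) = Complex.I := by rw [← h]; norm_cast
  refine ⟨?_, h3, ?_⟩
  · rintro rfl
    exact Complex.I_ne_zero (by simpa using h.symm)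
  · rw [zpow_neg, h3, Complex.inv_I]

/-- the factor of one loop -/
theorem pos_loop {ι : Type} (s : Finset ι) {ζ : ℂ} (h : ζ ^ 3 = Complex.I) (k : ι → ℤ)
    (a a' : ι → ℝ)
    (hs : (∑ i ∈ s, k i = 3 ∧ 0 < ∑ i ∈ s, (a i - a' i)) ∨
      (∑ i ∈ s, k i = -3 ∧ ∑ i ∈ s, (a i - a' i) < 0)) :
    Pos 1 (∏ i ∈ s, (C (ζ ^ k i) * (1 + C (a i : ℂ) * X)) +
      ∏ i ∈ s, (C (ζ ^ (- k i)) * (1 + C (a' i : ℂ) * X))) := by
  obtain ⟨h0, h3, h3'⟩ := zeta_facts h
  obtain ⟨R, hR⟩ := prod_expand s (fun i => (a i : ℂ))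
  obtain ⟨R', hR'⟩ := prod_expand s (fun i => (a' i : ℂ))
  rw [prod_mul_distrib, prod_mul_distrib, prod_zpow_eq s h0, prod_zpow_eq s h0, hR, hR',
    sum_neg_distrib]
  rcases hs with ⟨h1, h2⟩ | ⟨h1, h2⟩
  · refine ⟨C (∑ i ∈ s, (a i : ℂ)) - C (∑ i ∈ s, (a' i : ℂ)) + X * (R - R'), _, h2, ?_, ?_⟩
    · rw [h1, h3, h3', C_neg]; ring
    · simp [sum_sub_distrib]
  · refine ⟨C (∑ i ∈ s, (a' i : ℂ)) - C (∑ i ∈ s, (a i : ℂ)) + X * (R' - R), _,
      neg_pos.mpr h2, ?_, ?_⟩
    · rw [h1, neg_neg, h3, h3', C_neg]; ring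
    · simp [sum_sub_distrib]

theorem sameCycle_inv {α β : Type} [Finite α] {π : Perm α} (Q : α → β) (hQ : ∀ t, Q (π t) = Q t)
    {t t' : α} (h : π.SameCycle t t') : Q t = Q t' := by
  obtain ⟨n, -, rfl⟩ := h.exists_pow_eq'
  induction n with
  | zero => rfl
  | succ n ih => rw [pow_succ', Perm.mul_apply, hQ, ← ih ⟨n, by simp⟩]

namespace HM

variable {E D L V : Type} {H : HM E D L V} {e0 : E}
variable [Fintype E] [Fintype D] [Fintype L] [Fintype V]
  [DecidableEq E] [DecidableEq D] [DecidableEq L] [DecidableEq V]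

variable (H) in
/-- the second state of a pair -/
def snd (r : H.P e0 → E) (χ : H.P e0 → Bool) : H.P e0 → E := fun t => H.rot (χ t) (r t)

variable (H e0) in
/-- pairs of disjoint states -/
def Valid (x : (H.P e0 → E) × (H.P e0 → Bool)) : Prop :=
  H.IsState e0 x.1 ∧ H.IsState e0 (H.snd x.1 x.2)

/-- reverse the chirality on `J` -/
def flip (J : Finset (H.P e0)) (χ : H.P e0 → Bool) : H.P e0 → Bool :=
  fun t => if t ∈ J then !χ t else χ t

theorem flip_valid {r : H.P e0 → E} {χ0 χ : H.P e0 → Bool} {J : Finset (H.P e0)}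
    (h0 : H.Valid e0 (r, χ0)) (hJ : H.IsLoop (H.snd r χ0) χ0 J) (h : H.Valid e0 (r, χ)) :
    H.Valid e0 (r, flip J χ) ∧
      (∑ t ∈ J, sg (χ t) = ∑ t ∈ J, sg (χ0 t) ∨ ∑ t ∈ J, sg (χ t) = -∑ t ∈ J, sg (χ0 t)) := by
  classical
  obtain ⟨nxt, hn1, hn2, hn3, hn4, hn5⟩ := hJ.exists_nxt
  have hs0 : H.IsState e0 (H.snd r χ0) := h0.2
  have hs : H.IsState e0 (H.snd r χ) := h.2
  have hw : ∀ t ∈ J, H.tl (H.rot (!χ0 t) (r t)) = H.tl (H.snd r χ0 (nxt t)) := by
    intro t ht
    rw [← hn2 t ht, snd, rot_rot]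
  let VJ := J.image (fun t => H.tl (H.snd r χ0 t))
  have hVw : J.image (fun t => H.tl (H.rot (!χ0 t) (r t))) = VJ := by
    ext v
    simp only [VJ, mem_image]
    constructor
    · rintro ⟨t, ht, rfl⟩; exact ⟨nxt t, hn1 t ht, (hw t ht).symm⟩
    · rintro ⟨t', ht', rfl⟩
      obtain ⟨t, ht, rfl⟩ := hn4 t' ht'
      exact ⟨t, ht, hw t ht⟩
  have hVs : J.image (fun t => H.tl (H.snd r χ t)) = VJ := by
    apply eq_of_subset_of_card_le
    · intro v hv
      obtain ⟨t, ht, rfl⟩ := mem_image.mp hv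
      by_cases hc : χ t = χ0 t
      · exact mem_image.mpr ⟨t, ht, by simp [snd, hc]⟩
      · rw [← hVw]
        exact mem_image.mpr ⟨t, ht, by simp [snd, Bool.eq_not_iff.mpr hc]⟩
    · rw [card_image_of_injective _ (fun t t' h => hs.inj t t' h)]
      exact card_image_le
  have hprop : ∀ t ∈ J, χ t = χ0 t → χ (nxt t) = χ0 (nxt t) := by
    intro t ht hc
    have : H.tl (H.snd r χ0 (nxt t)) ∈ J.image (fun t => H.tl (H.snd r χ t)) := by
      rw [hVs]; exact mem_image_of_mem _ (hn1 t ht)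
    obtain ⟨u, hu, h1⟩ := mem_image.mp this
    by_cases hcu : χ u = χ0 u
    · have h2 : H.snd r χ u = H.snd r χ0 u := by simp [snd, hcu]
      rw [h2] at h1
      rw [← hs0.inj _ _ h1]; exact hcu
    · have h2 : H.snd r χ u = H.rot (!χ0 u) (r u) := by simp [snd, Bool.eq_not_iff.mpr hcu]
      rw [h2, hw u hu] at h1
      have := hn3 u hu t ht (hs0.inj _ _ h1)
      rw [this] at hcu; exact absurd hc hcu
  have hall : (∀ t ∈ J, χ t = χ0 t) ∨ (∀ t ∈ J, χ t = !χ0 t) := by
    by_cases hex : ∃ t ∈ J, χ t = χ0 t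
    · exact Or.inl (hn5 _ hex hprop)
    · push Not at hex
      exact Or.inr (fun t ht => Bool.eq_not_iff.mpr (hex t ht))
  constructor
  · refine ⟨h.1, hs.swap J (fun t => by simp [snd, h.1.dk_eq]) (fun t ht => by simp [snd, flip, ht])
      ?_⟩
    rw [hVs]
    rcases hall with hall | hall
    · rw [← hVw]
      exact image_congr (fun t ht => by
        have ht' : t ∈ J := ht
        simp [snd, flip, ht', hall t ht'])
    · exact image_congr (fun t ht => by
        have ht' : t ∈ J := ht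
        simp [snd, flip, ht', hall t ht'])
  · rcases hall with hall | hall
    · exact Or.inl (sum_congr rfl fun t ht => by rw [hall t ht])
    · right
      rw [← sum_neg_distrib]
      exact sum_congr rfl fun t ht => by rw [hall t ht, sg_not]

/-- the weight of a pair -/
noncomputable def wt (ζ : ℂ) (A : E → ℝ) (x : (H.P e0 → E) × (H.P e0 → Bool)) : ℂ[X] :=
  ∏ t, (C (ζ ^ sg (x.2 t)) * (1 + C (A (x.1 t) : ℂ) * X))

theorem wt_flip {ζ : ℂ} (hζ : ζ ^ 3 = Complex.I) (A : E → ℝ) (r : H.P e0 → E)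
    (χ : H.P e0 → Bool) (J : Finset (H.P e0))
    (h : ∑ t ∈ J, sg (χ t) = 3 ∨ ∑ t ∈ J, sg (χ t) = -3) :
    wt ζ A (r, χ) + wt ζ A (r, flip J χ) = 0 := by
  obtain ⟨h0, h3, h3'⟩ := zeta_facts hζ
  unfold wt
  simp only [prod_mul_distrib]
  rw [← add_mul, ← prod_mul_prod_compl J, ← prod_mul_prod_compl J (fun t => C (ζ ^ sg (flip J χ t)))]
  have h1 : ∏ t ∈ Jᶜ, C (ζ ^ sg (flip J χ t)) = ∏ t ∈ Jᶜ, C (ζ ^ sg (χ t)) :=
    prod_congr rfl fun t ht => by simp [flip, mem_compl.mp ht]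
  have h2 : ∑ t ∈ J, sg (flip J χ t) = -∑ t ∈ J, sg (χ t) := by
    rw [← sum_neg_distrib]
    exact sum_congr rfl fun t ht => by simp [flip, ht]
  rw [h1, ← add_mul, prod_zpow_eq J h0, prod_zpow_eq J h0, h2]
  rcases h with h | h <;> rw [h]
  · rw [h3, h3', C_neg]; ring
  · rw [neg_neg, h3, h3', C_neg]; ring

open Classical in
theorem sum_zero {ζ : ℂ} (hζ : ζ ^ 3 = Complex.I) (A : E → ℝ)
    (hA : ∀ (p : H.P e0 → E) (χ : H.P e0 → Bool) (J : Finset (H.P e0)),
      H.IsState e0 p → H.IsLoop p χ J → ∑ t ∈ J, sg (χ t) = 3 ∨ ∑ t ∈ J, sg (χ t) = -3)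
    (hl : ∀ x, H.Valid e0 x → ∃ J, H.IsLoop (H.snd x.1 x.2) x.2 J) :
    ∑ x ∈ univ.filter (H.Valid e0), wt ζ A x = 0 := by
  have hch : ∀ r : H.P e0 → E, ∃ J : Finset (H.P e0), ∀ χ, H.Valid e0 (r, χ) →
      J.Nonempty ∧ H.Valid e0 (r, flip J χ) ∧
        (∑ t ∈ J, sg (χ t) = 3 ∨ ∑ t ∈ J, sg (χ t) = -3) := by
    intro r
    by_cases hex : ∃ χ0, H.Valid e0 (r, χ0)
    · obtain ⟨χ0, h0⟩ := hex
      obtain ⟨J, hJ⟩ := hl _ h0
      refine ⟨J, fun χ h => ?_⟩
      obtain ⟨h1, h2⟩ := flip_valid h0 hJ h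
      have h3 := hA _ _ _ h0.2 hJ
      refine ⟨hJ.ne, h1, ?_⟩
      dsimp only at h3
      omega
    · exact ⟨∅, fun χ h => absurd ⟨χ, h⟩ hex⟩
  choose J hJ using hch
  refine sum_involution (fun x _ => (x.1, flip (J x.1) x.2)) ?_ ?_ ?_ ?_
  · rintro ⟨r, χ⟩ hx
    exact wt_flip hζ A r χ _ (hJ r χ (mem_filter.mp hx).2).2.2
  · rintro ⟨r, χ⟩ hx - heq
    obtain ⟨t, ht⟩ := (hJ r χ (mem_filter.mp hx).2).1
    have := congrFun (congrArg Prod.snd heq) t
    simp [flip, ht] at this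
  · rintro ⟨r, χ⟩ hx
    exact mem_filter.mpr ⟨mem_univ _, (hJ r χ (mem_filter.mp hx).2).2.1⟩
  · rintro ⟨r, χ⟩ _
    refine Prod.ext rfl (funext fun t => ?_)
    by_cases ht : t ∈ J r <;> simp [flip, ht]

variable (H) in
/-- the third corners -/
def third (x : (H.P e0 → E) × (H.P e0 → Bool)) : H.P e0 → E := fun t => H.rot (!x.2 t) (x.1 t)

theorem rot_inj' {x : Bool} {e e' : E} (h : H.rot x e = H.rot x e') : e = e' := by
  rw [← H.rot_not_rot x e, h, H.rot_not_rot]

open Classical in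
theorem fibre_pos {ζ : ℂ} (hζ : ζ ^ 3 = Complex.I) (A : E → ℝ)
    (hA : ∀ (p : H.P e0 → E) (χ : H.P e0 → Bool) (J : Finset (H.P e0)),
      H.IsState e0 p → H.IsLoop p χ J →
      (∑ t ∈ J, sg (χ t) = 3 ∧ 0 < ∑ t ∈ J, (A (p t) - A (H.rot (χ t) (p t)))) ∨
      (∑ t ∈ J, sg (χ t) = -3 ∧ ∑ t ∈ J, (A (p t) - A (H.rot (χ t) (p t))) < 0))
    (x0 : (H.P e0 → E) × (H.P e0 → Bool)) (h0 : H.Valid e0 x0) :
    ∃ c, Pos c (∑ x ∈ (univ.filter (H.Valid e0)).filter (fun x => H.third x = H.third x0),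
      wt ζ A x) := by
  obtain ⟨r0, χ0⟩ := x0
  have hr0 : H.IsState e0 r0 := h0.1
  have hs0 : H.IsState e0 (H.snd r0 χ0) := h0.2
  choose nx hnx using fun t => hr0.surj _ (hs0.nroot t)
  have hinj : Function.Injective nx := fun t t' h => hs0.inj _ _ (by rw [← hnx, ← hnx, h])
  let π : Perm (H.P e0) := Equiv.ofBijective nx (Finite.injective_iff_bijective.mp hinj)
  have hπ : ∀ t, H.tl (r0 (π t)) = H.tl (H.snd r0 χ0 t) := hnx
  let Q := Quotient (Perm.SameCycle.setoid π)
  let cl : H.P e0 → Q := Quotient.mk _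
  have hcl : ∀ t, cl (π t) = cl t := fun t => Quotient.sound (by
    change π.SameCycle (π t) t
    exact Perm.sameCycle_apply_left.mpr (Perm.SameCycle.refl _ _))
  have hloop : ∀ o : Q, H.IsLoop r0 χ0 (univ.filter (fun t => cl t = o)) := by
    intro o
    refine ⟨?_, ?_, ?_⟩
    · obtain ⟨t, rfl⟩ := Quotient.exists_rep o
      exact ⟨t, by simp [cl]⟩
    · intro t ht
      exact ⟨π t, by simpa [hcl] using ht, (hπ t).symm⟩
    · rintro J' hsub ⟨t, ht⟩ hcJ
      refine subset_antisymm hsub fun t' ht' => ?_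
      have h1 : cl t = cl t' := by
        rw [(mem_filter.mp (hsub ht)).2, (mem_filter.mp ht').2]
      have h2 : π.SameCycle t t' := Quotient.exact h1
      obtain ⟨n, -, rfl⟩ := h2.exists_pow_eq'
      clear ht' h1 h2
      induction n with
      | zero => exact ht
      | succ n ih =>
        obtain ⟨u, hu, h3⟩ := hcJ _ ih
        rw [pow_succ', Perm.mul_apply, hr0.inj _ _ ((hπ _).trans h3)]
        exact hu
  let Φ : (Q → Bool) → (H.P e0 → E) × (H.P e0 → Bool) := fun η =>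
    (fun t => if η (cl t) then r0 t else H.snd r0 χ0 t,
      fun t => if η (cl t) then χ0 t else !χ0 t)
  have hΦs : ∀ η t, H.snd (Φ η).1 (Φ η).2 t = if η (cl t) then H.snd r0 χ0 t else r0 t := by
    intro η t
    simp only [snd, Φ]
    split_ifs
    · rfl
    · exact H.rot_not_rot _ _
  have himg : ∀ η : Q → Bool,
      (univ.filter (fun t => η (cl t) = false)).image (fun t => H.tl (H.snd r0 χ0 t)) =
      (univ.filter (fun t => η (cl t) = false)).image (fun t => H.tl (r0 t)) := by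
    intro η
    ext v
    simp only [mem_image, mem_filter, mem_univ, true_and]
    constructor
    · rintro ⟨t, ht, rfl⟩; exact ⟨π t, by rw [hcl]; exact ht, hπ t⟩
    · rintro ⟨t, ht, rfl⟩
      refine ⟨π.symm t, by rw [← hcl, Equiv.apply_symm_apply]; exact ht, ?_⟩
      rw [← hπ, Equiv.apply_symm_apply]
  have hval : ∀ η, H.Valid e0 (Φ η) := by
    intro η
    constructor
    · refine hr0.swap (univ.filter (fun t => η (cl t) = false)) ?_ ?_ ?_
      · intro t; simp only [Φ]; split_ifs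
        · exact hr0.dk_eq t
        · exact hs0.dk_eq t
      · intro t ht
        have : η (cl t) = true := by simpa using ht
        simp [Φ, this]
      · rw [← himg]
        exact image_congr (fun t ht => by
          have : η (cl t) = false := by simpa using ht
          simp [Φ, this])
    · refine hs0.swap (univ.filter (fun t => η (cl t) = false)) ?_ ?_ ?_
      · intro t; rw [hΦs]; split_ifs
        · exact hs0.dk_eq t
        · exact hr0.dk_eq t
      · intro t ht
        have : η (cl t) = true := by simpa using ht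
        rw [hΦs, if_pos this]
      · rw [himg]
        exact image_congr (fun t ht => by
          have : η (cl t) = false := by simpa using ht
          simp [hΦs, this])
  have hsum : ∑ x ∈ (univ.filter (H.Valid e0)).filter (fun x => H.third x = H.third (r0, χ0)),
      wt ζ A x = ∑ η : Q → Bool, wt ζ A (Φ η) := by
    symm
    apply sum_bij (fun η _ => Φ η)
    · intro η _
      refine mem_filter.mpr ⟨mem_filter.mpr ⟨mem_univ _, hval η⟩, funext fun t => ?_⟩
      simp only [third, Φ, snd]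
      split_ifs
      · rfl
      · rw [Bool.not_not, rot_rot]
    · intro η _ η' _ h
      funext o
      obtain ⟨t, rfl⟩ := Quotient.exists_rep o
      have := congrFun (congrArg Prod.snd h) t
      simp only [Φ] at this
      change η (cl t) = η' (cl t)
      cases h1 : η (cl t) <;> cases h2 : η' (cl t) <;> simp_all
    · rintro ⟨r, χ⟩ hx
      obtain ⟨hx1, hx2⟩ := mem_filter.mp hx
      have hv : H.Valid e0 (r, χ) := (mem_filter.mp hx1).2
      have hth : ∀ t, H.rot (!χ t) (r t) = H.rot (!χ0 t) (r0 t) := fun t => congrFun hx2 t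
      have hA' : ∀ t, χ t = χ0 t → r t = r0 t ∧ H.snd r χ t = H.snd r0 χ0 t := by
        intro t h
        have h1 := hth t
        rw [h] at h1
        have h2 := rot_inj' h1
        exact ⟨h2, by simp [snd, h, h2]⟩
      have hB' : ∀ t, χ t ≠ χ0 t → r t = H.snd r0 χ0 t ∧ H.snd r χ t = r0 t := by
        intro t h
        have h' : χ t = !χ0 t := Bool.eq_not_iff.mpr h
        have h1 := hth t
        rw [h', Bool.not_not, ← rot_rot] at h1
        have h2 := rot_inj' h1
        exact ⟨h2, by simp [snd, h', h2, rot_not_rot]⟩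
      have hinv : ∀ t, decide (χ (π t) = χ0 (π t)) = decide (χ t = χ0 t) := by
        intro t
        rw [decide_eq_decide]
        constructor
        · intro h
          by_contra h'
          have h1 : π t = t := hv.1.inj _ _ (by
            change H.tl (r (π t)) = H.tl (r t)
            rw [(hA' _ h).1, (hB' _ h').1, hπ])
          rw [h1] at h; exact h' h
        · intro h
          by_contra h'
          have h1 : π t = t := hv.2.inj _ _ (by
            change H.tl (H.snd r χ (π t)) = H.tl (H.snd r χ t)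
            rw [(hA' _ h).2, (hB' _ h').2, hπ])
          rw [h1] at h'; exact h' h
      refine ⟨Quotient.lift (fun t => decide (χ t = χ0 t))
        (fun t t' h => sameCycle_inv (fun t => decide (χ t = χ0 t)) hinv h), mem_univ _, ?_⟩
      refine Prod.ext (funext fun t => ?_) (funext fun t => ?_)
      · change (if decide (χ t = χ0 t) = true then r0 t else H.snd r0 χ0 t) = r t
        by_cases h : χ t = χ0 t
        · simp [h, (hA' t h).1]
        · simp [h, (hB' t h).1]
      · change (if decide (χ t = χ0 t) = true then χ0 t else !χ0 t) = χ t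
        by_cases h : χ t = χ0 t
        · simp [h]
        · simp [Bool.eq_not_iff.mpr h]
    · intro η _; rfl
  let g : H.P e0 → Bool → ℂ[X] := fun t x =>
    if x then C (ζ ^ sg (χ0 t)) * (1 + C (A (r0 t) : ℂ) * X)
    else C (ζ ^ (- sg (χ0 t))) * (1 + C (A (H.rot (χ0 t) (r0 t)) : ℂ) * X)
  have hwt : ∀ η, wt ζ A (Φ η) = ∏ o : Q, ∏ t ∈ univ.filter (fun t => cl t = o), g t (η o) := by
    intro η
    rw [wt, ← prod_fiberwise (s := univ) (g := cl)]
    refine prod_congr rfl fun o _ => prod_congr rfl fun t ht => ?_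
    rw [← (mem_filter.mp ht).2]
    simp only [Φ, g, snd]
    split_ifs <;> simp
  refine ⟨Fintype.card Q, ?_⟩
  rw [hsum, sum_congr rfl (fun η _ => hwt η), ← Fintype.piFinset_univ,
    ← prod_univ_sum (fun _ => (univ : Finset Bool))
      (fun o x => ∏ t ∈ univ.filter (fun t => cl t = o), g t x)]
  apply Pos.prod
  intro o _
  rw [Fintype.sum_bool]
  exact pos_loop _ hζ (fun t => sg (χ0 t)) (fun t => A (r0 t)) (fun t => A (H.rot (χ0 t) (r0 t)))
    (hA r0 χ0 _ hr0 (hloop o))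

/-- if there is a pair of disjoint states, there is one without directed cycle -/
theorem exists_acyclic (hc : H.Conn) (he : H.Euler) (hne : ∃ x, H.Valid e0 x) :
    ∃ x, H.Valid e0 x ∧ ∀ J, ¬ H.IsLoop (H.snd x.1 x.2) x.2 J := by
  classical
  by_contra hcon
  push Not at hcon
  obtain ⟨A, hA⟩ := exists_flux hc he e0
  obtain ⟨ζ, hζ⟩ := IsAlgClosed.exists_pow_nat_eq Complex.I (n := 3) (by norm_num)
  have h1 := sum_zero hζ A (fun p χ J hp hJ => (hA p χ J hp hJ).imp And.left And.left) hcon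
  rw [← sum_fiberwise_of_maps_to (t := (univ.filter (H.Valid e0)).image H.third) (g := H.third)
    (fun x hx => mem_image_of_mem _ hx)] at h1
  refine sum_pos_ne_zero _ ?_ _ ?_ h1
  · obtain ⟨x, hx⟩ := hne
    exact ⟨_, mem_image_of_mem _ (mem_filter.mpr ⟨mem_univ x, hx⟩)⟩
  · intro w hw
    obtain ⟨x0, hx0, rfl⟩ := mem_image.mp hw
    exact fibre_pos hζ A hA x0 (mem_filter.mp hx0).2

end HM

end Crest.Agent.R39
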